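import Vale.Agent.Lib.P181.Stable.StDefs

/-!
# P181: finite-dimensionality in the stable model
-/

namespace Vale.Agent.Lib.P181

open MvPolynomial

variable {k : ℕ}

theorem finite_tsize_le (k b : ℕ) : Set.Finite {p : Fin k → ℕ | tsize p ≤ b} := by
  apply Set.Finite.subset (Finset.finite_toSet (Fintype.piFinset fun _ : Fin k => Finset.range (b + 1)))
  intro p hp
  rw [Finset.mem_coe, Fintype.mem_piFinset]
  intro i
  rw [Finset.mem_range]
  have h1 : p i ≤ tsize p :=
    Finset.single_le_sum (f := p) (fun _ _ => Nat.zero_le _) (Finset.mem_univ i)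
  have h2 : tsize p ≤ b := hp
  omega

/-- homogeneous polynomials of given degree in finitely many of the variables -/
theorem supported_hom_fg {σ : Type} {s : Set σ} (hs : s.Finite) (d : ℕ) :
    ((supported ℂ s).toSubmodule ⊓ homogeneousSubmodule σ ℂ d).FG := by
  have hfin : Finite s := hs.to_subtype
  have h1 : (homogeneousSubmodule s ℂ d).FG := homogeneousSubmodule_fg _ _ d
  have h2 := h1.map (rename (Subtype.val : s → σ) (R := ℂ)).toLinearMap
  have h3 : (supported ℂ s).toSubmodule ⊓ homogeneousSubmodule σ ℂ d ≤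
      (homogeneousSubmodule s ℂ d).map (rename (Subtype.val : s → σ) (R := ℂ)).toLinearMap := by
    intro F hF
    rw [Submodule.mem_inf, Subalgebra.mem_toSubmodule, supported_eq_range_rename,
      mem_homogeneousSubmodule] at hF
    obtain ⟨⟨G, hG⟩, hh⟩ := hF
    refine ⟨G, ?_, hG⟩
    rw [SetLike.mem_coe, mem_homogeneousSubmodule,
      ← IsHomogeneous.rename_isHomogeneous_iff Subtype.val_injective]
    have hG' : rename Subtype.val G = F := hG
    rw [hG']
    exact hh
  have : FiniteDimensional ℂ ((homogeneousSubmodule s ℂ d).map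
      (rename (Subtype.val : s → σ) (R := ℂ)).toLinearMap) := Module.Finite.iff_fg.mpr h2
  have h4 : FiniteDimensional ℂ
      ((supported ℂ s).toSubmodule ⊓ homogeneousSubmodule σ ℂ d : Submodule ℂ (MvPolynomial σ ℂ)) :=
    Submodule.finiteDimensional_of_le h3
  exact Module.Finite.iff_fg.mp h4

/-- the weight space: homogeneous of degree `c`, variables of size at most `a`, weight `nu` -/
noncomputable def Wt (k c a : ℕ) (nu : Fin k → ℕ) : Submodule ℂ (PolyRing k) :=
  (supported ℂ {p : Fin k → ℕ | tsize p ≤ a}).toSubmodule ⊓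
    homogeneousSubmodule (Fin k → ℕ) ℂ c ⊓
    weightedHomogeneousSubmodule ℂ (fun p : Fin k → ℕ => p) nu

theorem mem_Wt {c a : ℕ} {nu : Fin k → ℕ} {F : PolyRing k} :
    F ∈ Wt k c a nu ↔
      (∀ p ∈ F.vars, tsize p ≤ a) ∧ F.IsHomogeneous c ∧
        IsWeightedHomogeneous (fun p : Fin k → ℕ => p) F nu := by
  unfold Wt
  simp only [Submodule.mem_inf, Subalgebra.mem_toSubmodule, mem_supported,
    mem_homogeneousSubmodule, mem_weightedHomogeneousSubmodule]
  constructor
  · rintro ⟨⟨h1, h2⟩, h3⟩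
    exact ⟨fun p hp => h1 hp, h2, h3⟩
  · rintro ⟨h1, h2, h3⟩
    exact ⟨⟨fun p hp => h1 p hp, h2⟩, h3⟩

instance Wt_finiteDimensional (k c a : ℕ) (nu : Fin k → ℕ) :
    FiniteDimensional ℂ (Wt k c a nu) := by
  have : FiniteDimensional ℂ
      ((supported ℂ {p : Fin k → ℕ | tsize p ≤ a}).toSubmodule ⊓
        homogeneousSubmodule (Fin k → ℕ) ℂ c : Submodule ℂ (PolyRing k)) :=
    Module.Finite.iff_fg.mpr (supported_hom_fg (finite_tsize_le k a) c)
  apply Submodule.finiteDimensional_of_le
    (S₂ := (supported ℂ {p : Fin k → ℕ | tsize p ≤ a}).toSubmodule ⊓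
      homogeneousSubmodule (Fin k → ℕ) ℂ c)
  unfold Wt
  exact inf_le_left

theorem St_le_Wt (k a b : ℕ) (nu : Fin k → ℕ) : St k a b nu ≤ Wt k a b nu := by
  intro F hF
  rw [mem_St] at hF
  rw [mem_Wt]
  exact ⟨hF.1, hF.2.1, hF.2.2.1⟩

instance St_finiteDimensional (k a b : ℕ) (nu : Fin k → ℕ) :
    FiniteDimensional ℂ (St k a b nu) :=
  Submodule.finiteDimensional_of_le (St_le_Wt k a b nu)

end Vale.Agent.Lib.P181
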