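import Vale.Agent.Lib.P181.Main
import Vale.Agent.Lib.P181.Stable.StFin

/-!
# P181: comparison of `HW (k+1) a b lam` with the stable model `St k a b nu`
-/

namespace Vale.Agent.Lib.P181

open MvPolynomial

variable {k : ℕ}

/-- forget the letter `0` -/
def tl (m : Fin (k + 1) → ℕ) : Fin k → ℕ := fun i => m i.succ

/-- complete a vector of size at most `a` to a vector of size `a` -/
def emb (a : ℕ) (p : Fin k → ℕ) : Fin (k + 1) → ℕ := Fin.cons (a - tsize p) p

theorem br_sum_eq_head_add_tsize (m : Fin (k + 1) → ℕ) : ∑ i, m i = m 0 + tsize (tl m) := by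
  rw [Fin.sum_univ_succ]
  rfl

theorem br_tl_move_succ (i j : Fin k) (m : Fin (k + 1) → ℕ) :
    tl (m - Pi.single j.succ 1 + Pi.single i.succ 1) = tl m - Pi.single j 1 + Pi.single i 1 := by
  funext l
  simp only [tl, Pi.add_apply, Pi.sub_apply, Pi.single_apply, Fin.succ_inj]

theorem br_tl_move_zero (j : Fin k) (m : Fin (k + 1) → ℕ) :
    tl (m - Pi.single j.succ 1 + Pi.single 0 1) = tl m - Pi.single j 1 := by
  funext l
  simp only [tl, Pi.add_apply, Pi.sub_apply, Pi.single_apply, Fin.succ_inj, Fin.succ_ne_zero,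
    if_false, add_zero]

theorem br_raise_rename_tl (i j : Fin k) (F : PolyRing (k + 1)) :
    raise k i j (rename tl F) = rename tl (raise (k + 1) i.succ j.succ F) := by
  induction F using MvPolynomial.induction_on with
  | C c => simp
  | add p q hp hq => simp [hp, hq]
  | mul_X p m hp =>
    rw [map_mul, Derivation.leibniz, Derivation.leibniz, hp, rename_X, raise_X, raise_X]
    simp only [smul_eq_mul, map_add, map_mul, rename_X, rename_C]
    rw [br_tl_move_succ]
    rfl

theorem br_low_rename_tl (j : Fin k) (F : PolyRing (k + 1)) :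
    low k j (rename tl F) = rename tl (raise (k + 1) 0 j.succ F) := by
  induction F using MvPolynomial.induction_on with
  | C c => simp
  | add p q hp hq => simp [hp, hq]
  | mul_X p m hp =>
    rw [map_mul, Derivation.leibniz, Derivation.leibniz, hp, rename_X, raise_X, low_X]
    simp only [smul_eq_mul, map_add, map_mul, rename_X, rename_C]
    rw [br_tl_move_zero]
    rfl

theorem br_weight_mapDomain_tl (u : (Fin (k + 1) → ℕ) →₀ ℕ) :
    Finsupp.weight (fun p : Fin k → ℕ => p) (Finsupp.mapDomain tl u)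
      = tl (Finsupp.weight (fun m : Fin (k + 1) → ℕ => m) u) := by
  rw [Finsupp.weight_apply, Finsupp.weight_apply,
    Finsupp.sum_mapDomain_index (by simp) (by intro m c1 c2; simp [add_smul])]
  funext l
  simp only [tl, Finsupp.sum, Finset.sum_apply, Pi.smul_apply]

theorem br_rename_tl_mem {a b : ℕ} {lam : Fin (k + 1) → ℕ} {F : PolyRing (k + 1)}
    (hF : F ∈ HW (k + 1) a b lam) : rename tl F ∈ St k a b (tl lam) := by
  classical
  rw [mem_HW] at hF
  rw [mem_St]
  obtain ⟨hv, hh, hw, hE⟩ := hF
  refine ⟨?_, hh.rename_isHomogeneous, ?_, ?_, ?_⟩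
  · intro p hp
    have := vars_rename tl F hp
    rw [Finset.mem_image] at this
    obtain ⟨m, hm, rfl⟩ := this
    have hm' : ∑ i, m i = b := hv hm
    rw [br_sum_eq_head_add_tsize] at hm'
    omega
  · intro d hd
    obtain ⟨u, rfl, hu⟩ := coeff_rename_ne_zero tl F d hd
    rw [br_weight_mapDomain_tl, hw hu]
  · intro j
    rw [br_low_rename_tl, hE 0 j.succ (Fin.succ_pos j), map_zero]
  · intro i j hij
    rw [br_raise_rename_tl, hE i.succ j.succ (Fin.succ_lt_succ_iff.mpr hij), map_zero]

theorem br_tl_injOn (b : ℕ) : Set.InjOn (tl (k := k)) {m | ∑ i, m i = b} := by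
  intro m hm m' hm' h
  have h1 : ∑ i, m i = b := hm
  have h2 : ∑ i, m' i = b := hm'
  rw [br_sum_eq_head_add_tsize] at h1 h2
  rw [h] at h1
  funext l
  refine Fin.cases ?_ (fun i => ?_) l
  · omega
  · exact congrFun h i

theorem br_rename_injOn_supported {σ τ : Type} (f : σ → τ) (s : Set σ) (hf : Set.InjOn f s)
    {F G : MvPolynomial σ ℂ} (hF : F ∈ supported ℂ s) (hG : G ∈ supported ℂ s)
    (h : rename f F = rename f G) : F = G := by
  rw [supported_eq_range_rename] at hF hG
  obtain ⟨F', rfl⟩ := hF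
  obtain ⟨G', rfl⟩ := hG
  have h' : rename f (rename Subtype.val F') = rename f (rename Subtype.val G') := h
  rw [rename_rename, rename_rename] at h'
  have hinj : Function.Injective (f ∘ (Subtype.val : s → σ)) := by
    intro x y hxy
    exact Subtype.ext (hf x.2 y.2 hxy)
  rw [rename_injective _ hinj h']

/-- `rename tl` embeds the highest weight vectors in the stable model -/
theorem bridge1 (a b : ℕ) (lam : Fin (k + 1) → ℕ) :
    mult (k + 1) a b lam ≤ Module.finrank ℂ (St k a b (tl lam)) := by
  unfold mult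
  let f : HW (k + 1) a b lam →ₗ[ℂ] St k a b (tl lam) :=
    (rename tl (R := ℂ)).toLinearMap.restrict (fun F hF => br_rename_tl_mem hF)
  apply LinearMap.finrank_le_finrank_of_injective (f := f)
  intro x y hxy
  have h2 : rename tl x.1 = rename tl y.1 := congrArg Subtype.val hxy
  have hx := (mem_HW.mp x.2).1
  have hy := (mem_HW.mp y.2).1
  exact Subtype.ext (br_rename_injOn_supported tl _ (br_tl_injOn b) (mem_supported.mpr hx)
    (mem_supported.mpr hy) h2)

theorem br_emb_zero (a : ℕ) (p : Fin k → ℕ) : emb a p 0 = a - tsize p := rfl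

theorem br_emb_succ (a : ℕ) (p : Fin k → ℕ) (i : Fin k) : emb a p i.succ = p i := rfl

theorem br_tl_emb (a : ℕ) (p : Fin k → ℕ) : tl (emb a p) = p := rfl

theorem br_emb_injective (a : ℕ) : Function.Injective (emb (k := k) a) := by
  intro p q h
  have := congrArg tl h
  rwa [br_tl_emb, br_tl_emb] at this

theorem br_tsize_move (i j : Fin k) (p : Fin k → ℕ) (hp : 0 < p j) :
    tsize (p - Pi.single j 1 + Pi.single i 1) = tsize p := by
  have h1 : (Pi.single j 1 : Fin k → ℕ) ≤ p := by
    intro l
    by_cases hl : l = j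
    · subst hl; simpa using Nat.succ_le_of_lt hp
    · simp [hl]
  have h2 := tsize_sub h1
  rw [tsize_single] at h2
  rw [tsize_add, tsize_single, h2]

theorem br_tsize_low (j : Fin k) (p : Fin k → ℕ) (hp : 0 < p j) :
    tsize (p - Pi.single j 1) + 1 = tsize p := by
  have h1 : (Pi.single j 1 : Fin k → ℕ) ≤ p := by
    intro l
    by_cases hl : l = j
    · subst hl; simpa using Nat.succ_le_of_lt hp
    · simp [hl]
  have h2 := tsize_sub h1
  rw [tsize_single] at h2
  exact h2

theorem br_emb_move_succ (a : ℕ) (i j : Fin k) (p : Fin k → ℕ) (hp : 0 < p j) :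
    emb a p - Pi.single j.succ 1 + Pi.single i.succ 1 = emb a (p - Pi.single j 1 + Pi.single i 1) := by
  funext l
  refine Fin.cases ?_ (fun l' => ?_) l
  · rw [br_emb_zero, br_tsize_move i j p hp]
    simp [br_emb_zero, (Fin.succ_ne_zero _).symm]
  · rw [br_emb_succ]
    simp only [Pi.add_apply, Pi.sub_apply, Pi.single_apply, Fin.succ_inj, br_emb_succ]

theorem br_emb_move_zero (a : ℕ) (j : Fin k) (p : Fin k → ℕ) (hp : 0 < p j) (hpa : tsize p ≤ a) :
    emb a p - Pi.single j.succ 1 + Pi.single 0 1 = emb a (p - Pi.single j 1) := by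
  funext l
  refine Fin.cases ?_ (fun l' => ?_) l
  · rw [br_emb_zero]
    have := br_tsize_low j p hp
    simp only [Pi.add_apply, Pi.sub_apply, Pi.single_apply, br_emb_zero, (Fin.succ_ne_zero _).symm,
      if_false, if_true]
    omega
  · rw [br_emb_succ]
    simp only [Pi.add_apply, Pi.sub_apply, Pi.single_apply, Fin.succ_inj, br_emb_succ,
      Fin.succ_ne_zero, if_false, add_zero]

theorem br_raise_rename_emb (a : ℕ) (i j : Fin k) (F : PolyRing k) :
    raise (k + 1) i.succ j.succ (rename (emb a) F) = rename (emb a) (raise k i j F) := by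
  induction F using MvPolynomial.induction_on with
  | C c => simp
  | add p q hp hq => simp [hp, hq]
  | mul_X p m hp =>
    rw [map_mul, Derivation.leibniz, Derivation.leibniz, hp, rename_X, raise_X, raise_X]
    simp only [smul_eq_mul, map_add, map_mul, rename_X, rename_C]
    rw [br_emb_succ]
    rcases Nat.eq_zero_or_pos (m j) with h0 | h0
    · simp [h0]
    · rw [br_emb_move_succ a i j m h0]

theorem br_low_rename_emb (a : ℕ) (j : Fin k)
    (F : MvPolynomial {p : Fin k → ℕ // tsize p ≤ a} ℂ) :
    raise (k + 1) 0 j.succ (rename (emb a) (rename Subtype.val F))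
      = rename (emb a) (low k j (rename Subtype.val F)) := by
  induction F using MvPolynomial.induction_on with
  | C c => simp
  | add p q hp hq => simp only [map_add, hp, hq]
  | mul_X p m hp =>
    rw [map_mul, map_mul, Derivation.leibniz, Derivation.leibniz, hp, rename_X, rename_X, raise_X,
      low_X]
    simp only [smul_eq_mul, map_add, map_mul, rename_X, rename_C]
    rw [br_emb_succ]
    rcases Nat.eq_zero_or_pos (m.1 j) with h0 | h0
    · simp [h0]
    · rw [br_emb_move_zero a j m.1 h0 m.2]

theorem br_low_rename_emb' (a : ℕ) (j : Fin k) {F : PolyRing k}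
    (hF : ∀ p ∈ F.vars, tsize p ≤ a) :
    raise (k + 1) 0 j.succ (rename (emb a) F) = rename (emb a) (low k j F) := by
  have h1 : F ∈ supported ℂ {p : Fin k → ℕ | tsize p ≤ a} :=
    mem_supported.mpr fun p hp => hF p hp
  rw [supported_eq_range_rename] at h1
  obtain ⟨F', rfl⟩ := h1
  exact br_low_rename_emb a j F'

theorem br_tsize_weight (u : (Fin k → ℕ) →₀ ℕ) :
    tsize (Finsupp.weight (fun p : Fin k → ℕ => p) u) = u.sum fun p c => c * tsize p := by
  unfold tsize
  simp_rw [weight_coord, Finsupp.sum]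
  rw [Finset.sum_comm]
  simp_rw [Finset.mul_sum]

theorem br_weight_mapDomain_emb (a : ℕ) (u : (Fin k → ℕ) →₀ ℕ) (hu : ∀ p ∈ u.support, tsize p ≤ a) :
    Finsupp.weight (fun m : Fin (k + 1) → ℕ => m) (Finsupp.mapDomain (emb a) u)
      = Fin.cons (u.degree * a - tsize (Finsupp.weight (fun p : Fin k → ℕ => p) u))
          (Finsupp.weight (fun p : Fin k → ℕ => p) u) := by
  rw [Finsupp.weight_apply,
    Finsupp.sum_mapDomain_index (by simp) (by intro m c1 c2; simp [add_smul])]
  funext l
  refine Fin.cases ?_ (fun l' => ?_) l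
  · rw [Fin.cons_zero, br_tsize_weight, Finsupp.degree_apply, Finsupp.sum, Finsupp.sum,
      Finset.sum_apply, Finset.sum_mul]
    simp only [Pi.smul_apply, br_emb_zero, smul_eq_mul]
    symm
    apply Nat.sub_eq_of_eq_add
    rw [← Finset.sum_add_distrib]
    refine Finset.sum_congr rfl fun p hp => ?_
    rw [← Nat.mul_add, Nat.sub_add_cancel (hu p hp)]
  · rw [Fin.cons_succ, Finsupp.weight_apply, Finsupp.sum, Finsupp.sum, Finset.sum_apply,
      Finset.sum_apply]
    simp only [Pi.smul_apply, br_emb_succ]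

theorem br_rename_emb_mem {c a : ℕ} {nu : Fin k → ℕ} {F : PolyRing k} (hF : F ∈ St k c a nu) :
    rename (emb a) F ∈ HW (k + 1) c a (Fin.cons (c * a - tsize nu) nu) := by
  classical
  rw [mem_St] at hF
  rw [mem_HW]
  obtain ⟨hv, hh, hw, hL, hE⟩ := hF
  refine ⟨?_, hh.rename_isHomogeneous, ?_, ?_⟩
  · intro m hm
    have := vars_rename (emb a) F hm
    rw [Finset.mem_image] at this
    obtain ⟨p, hp, rfl⟩ := this
    have hp' := hv p hp
    show ∑ i, emb a p i = a
    rw [br_sum_eq_head_add_tsize, br_tl_emb, br_emb_zero]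
    omega
  · intro d hd
    obtain ⟨u, rfl, hu⟩ := coeff_rename_ne_zero (emb a) F d hd
    have hdeg : u.degree = c := by
      rw [Finsupp.degree_eq_weight_one]
      exact hh hu
    have hsupp : ∀ p ∈ u.support, tsize p ≤ a := by
      intro p hp
      apply hv
      rw [mem_vars_iff_mem_support]
      exact ⟨u, mem_support_iff.mpr hu, hp⟩
    rw [br_weight_mapDomain_emb a u hsupp, hw hu, hdeg]
  · intro i j hij
    obtain ⟨j', rfl⟩ : ∃ j' : Fin k, j'.succ = j := by
      refine Fin.exists_succ_eq.mpr ?_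
      intro h
      rw [h] at hij
      exact absurd hij (by simp)
    refine Fin.cases ?_ (fun i' => ?_) i (motive := fun i => i < j'.succ →
      raise (k + 1) i j'.succ (rename (emb a) F) = 0) hij
    · intro _
      rw [br_low_rename_emb' a j' hv, hL j', map_zero]
    · intro h
      rw [br_raise_rename_emb, hE i' j' (Fin.succ_lt_succ_iff.mp h), map_zero]

/-- `rename (emb a)` embeds the stable model in the highest weight vectors -/
theorem bridge2 (c a : ℕ) (nu : Fin k → ℕ) :
    Module.finrank ℂ (St k c a nu) ≤ mult (k + 1) c a (Fin.cons (c * a - tsize nu) nu) := by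
  unfold mult
  let f : St k c a nu →ₗ[ℂ] HW (k + 1) c a (Fin.cons (c * a - tsize nu) nu) :=
    (rename (emb a) (R := ℂ)).toLinearMap.restrict (fun F hF => br_rename_emb_mem hF)
  apply LinearMap.finrank_le_finrank_of_injective (f := f)
  intro x y hxy
  have h2 := congrArg Subtype.val hxy
  exact Subtype.ext (rename_injective (emb a) (br_emb_injective a) h2)

/-- the weights of `Sym^a (Sym^b)` have size `a b` -/
theorem sum_eq_of_mult_ne_zero {a b : ℕ} {lam : Fin (k + 1) → ℕ} (h : mult (k + 1) a b lam ≠ 0) :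
    ∑ i, lam i = a * b := by
  unfold mult at h
  have hne : HW (k + 1) a b lam ≠ ⊥ := by
    intro hb
    rw [hb] at h
    exact h (finrank_bot ℂ _)
  obtain ⟨F, hF, hF0⟩ := Submodule.exists_mem_ne_zero_of_ne_bot hne
  rw [mem_HW] at hF
  obtain ⟨hv, hh, hw, -⟩ := hF
  obtain ⟨d, hd⟩ := ne_zero_iff.mp hF0
  have hdeg : d.degree = a := by
    rw [Finsupp.degree_eq_weight_one]
    exact hh hd
  rw [← hw hd, ← hdeg]
  simp_rw [weight_coord, Finsupp.sum]
  rw [Finset.sum_comm, Finsupp.degree_apply, Finset.sum_mul]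
  refine Finset.sum_congr rfl fun m hm => ?_
  rw [← Finset.mul_sum]
  have hmv : m ∈ F.vars := by
    rw [mem_vars_iff_mem_support]
    exact ⟨d, mem_support_iff.mpr hd, hm⟩
  have : ∑ i, m i = b := hv hmv
  rw [this]

end Vale.Agent.Lib.P181
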