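import Mathlib

/-!
# P181: a combinatorial form of the first fundamental theorem for multisymmetric functions

`L` is a function of `a`-tuples `p = (p_0, …, p_(a-1))` of vectors `p_r : Fin k → ℕ`.
Think of `L p` as the value of a linear functional on the monomial `∏_r t_r^(p_r)`; the sum
`∑ r, L (p + Pi.single r q)` is its value on `P_q * ∏_r t_r^(p_r)`, `P_q = ∑_r t_r^q` the power sum.
-/

namespace Vale.Agent.Lib.P181

open Finset

open scoped Classical in
/-- sum of `L` over the injective placements of the vectors `x i` -/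
noncomputable def LL {k a : ℕ} (L : (Fin a → (Fin k → ℕ)) → ℂ) (l : ℕ) (x : Fin l → (Fin k → ℕ))
    (p : Fin a → (Fin k → ℕ)) : ℂ :=
  ∑ f : Fin l → Fin a, if Function.Injective f then L (p + ∑ i, Pi.single (f i) (x i)) else 0

lemma sum_single_add {k a : ℕ} (l : ℕ) (f : Fin l → Fin a) (x : Fin l → (Fin k → ℕ)) (i : Fin l)
    (q : Fin k → ℕ) :
    ∑ i', (Pi.single (f i') ((x + Pi.single i q : Fin l → (Fin k → ℕ)) i') : Fin a → (Fin k → ℕ))
      = ∑ i', Pi.single (f i') (x i') + Pi.single (f i) q := by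
  simp only [Pi.add_apply, Pi.single_add, Finset.sum_add_distrib]
  congr 1
  rw [Finset.sum_eq_single i]
  · simp
  · intro b _ hb
    simp [Pi.single_eq_of_ne hb]
  · simp

lemma peel_f {k a : ℕ} (L : (Fin a → (Fin k → ℕ)) → ℂ) (q : Fin k → ℕ)
    (hq : ∀ p : Fin a → (Fin k → ℕ), ∑ r, L (p + Pi.single r q) = 0) (l : ℕ) (f : Fin l → Fin a)
    (hf : Function.Injective f) (P : Fin a → (Fin k → ℕ)) :
    ∑ r, (if r ∉ Set.range f then L (P + Pi.single r q) else 0)
      + ∑ i, L (P + Pi.single (f i) q) = 0 := by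
  classical
  have h1 : ∑ i, L (P + Pi.single (f i) q)
      = ∑ r, if r ∈ Set.range f then L (P + Pi.single r q) else 0 := by
    rw [← Finset.sum_filter]
    have : (univ.filter (fun r => r ∈ Set.range f)) = univ.image f := by
      ext r; simp
    rw [this, Finset.sum_image (fun a _ b _ h => hf h)]
  rw [h1, ← Finset.sum_add_distrib]
  refine Eq.trans ?_ (hq P)
  refine sum_congr rfl fun r _ => ?_
  by_cases h : r ∈ Set.range f
  · rw [if_neg (not_not.2 h), if_pos h, zero_add]
  · rw [if_pos h, if_neg h, add_zero]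

lemma sum_cons_fun {a l : ℕ} (F : (Fin (l + 1) → Fin a) → ℂ) :
    ∑ g, F g = ∑ f : Fin l → Fin a, ∑ r : Fin a, F (Fin.cons r f) := by
  rw [← (Fin.consEquiv (fun _ => Fin a)).sum_comp, Fintype.sum_prod_type, Finset.sum_comm]
  rfl

lemma peel {k a : ℕ} (L : (Fin a → (Fin k → ℕ)) → ℂ) (q : Fin k → ℕ)
    (hq : ∀ p : Fin a → (Fin k → ℕ), ∑ r, L (p + Pi.single r q) = 0) (l : ℕ)
    (x : Fin l → (Fin k → ℕ)) (p : Fin a → (Fin k → ℕ)) :
    LL L (l + 1) (Fin.cons q x) p = - ∑ i, LL L l (x + Pi.single i q) p := by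
  classical
  rw [eq_neg_iff_add_eq_zero]
  unfold LL
  rw [sum_cons_fun, Finset.sum_comm (s := (univ : Finset (Fin l))), ← sum_add_distrib]
  apply sum_eq_zero
  intro f _
  by_cases hf : Function.Injective f
  · refine Eq.trans ?_ (peel_f L q hq l f hf (p + ∑ i, Pi.single (f i) (x i)))
    congr 1
    · refine sum_congr rfl fun r _ => ?_
      simp only [Fin.cons_injective_iff, hf, and_true, Fin.sum_univ_succ,
        Fin.cons_zero, Fin.cons_succ]
      by_cases hr : r ∈ Set.range f
      · rw [if_neg (not_not.2 hr), if_neg (not_not.2 hr)]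
      · rw [if_pos hr, if_pos hr]
        congr 1
        abel
    · refine sum_congr rfl fun i _ => ?_
      rw [if_pos hf, sum_single_add, add_assoc]
  · simp [Fin.cons_injective_iff, hf]

lemma LL_one {k a : ℕ} (L : (Fin a → (Fin k → ℕ)) → ℂ) (q : Fin k → ℕ)
    (p : Fin a → (Fin k → ℕ)) :
    LL L 1 (fun _ => q) p = ∑ r, L (p + Pi.single r q) := by
  classical
  unfold LL
  rw [← (Equiv.funUnique (Fin 1) (Fin a)).symm.sum_comp]
  refine sum_congr rfl fun r _ => ?_
  rw [if_pos (Function.injective_of_subsingleton _)]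
  simp

lemma LL_big {k a : ℕ} (L : (Fin a → (Fin k → ℕ)) → ℂ) (x : Fin (a + 1) → (Fin k → ℕ))
    (p : Fin a → (Fin k → ℕ)) : LL L (a + 1) x p = 0 := by
  classical
  unfold LL
  apply sum_eq_zero
  intro f _
  rw [if_neg]
  intro hf
  have := Fintype.card_le_of_injective f hf
  simp at this

/-- total size of a vector -/
def sz {k : ℕ} (q : Fin k → ℕ) : ℕ := ∑ j, q j

lemma sz_add {k : ℕ} (u v : Fin k → ℕ) : sz (u + v) = sz u + sz v := by
  simp [sz, Finset.sum_add_distrib]

lemma sz_pos {k : ℕ} (q : Fin k → ℕ) (hq : q ≠ 0) : 1 ≤ sz q := by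
  by_contra h
  apply hq
  have h0 : sz q = 0 := by omega
  funext j
  exact (Finset.sum_eq_zero_iff.1 h0) j (mem_univ j)

lemma exists_decomp {k : ℕ} : ∀ (l : ℕ) (q : Fin k → ℕ), l + 1 ≤ sz q →
    ∃ x : Fin (l + 1) → (Fin k → ℕ), (∀ i, x i ≠ 0) ∧ ∑ i, x i = q := by
  intro l
  induction l with
  | zero =>
    intro q hq
    refine ⟨fun _ => q, fun _ h0 => ?_, by simp⟩
    subst h0
    simp [sz] at hq
  | succ l ih =>
    intro q hq
    have hex : ∃ j, q j ≠ 0 := by
      by_contra hcon
      have h0 : q = 0 := by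
        funext j
        by_contra hj
        exact hcon ⟨j, hj⟩
      subst h0
      simp [sz] at hq
    obtain ⟨j, hj⟩ := hex
    have hle : (Pi.single j 1 : Fin k → ℕ) ≤ q := by
      intro i
      by_cases hij : i = j
      · subst hij
        simp
        omega
      · simp [Pi.single_eq_of_ne hij]
    have hq' : (Pi.single j 1 : Fin k → ℕ) + (q - Pi.single j 1) = q := add_tsub_cancel_of_le hle
    have hs1 : sz (Pi.single j 1 : Fin k → ℕ) = 1 := by
      simp [sz]
    have hsz : sz q = 1 + sz (q - Pi.single j 1) := by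
      conv_lhs => rw [← hq']
      rw [sz_add, hs1]
    obtain ⟨x, hx, hxs⟩ := ih (q - Pi.single j 1) (by omega)
    refine ⟨Fin.cons (Pi.single j 1) x, ?_, ?_⟩
    · intro i
      refine Fin.cases ?_ (fun i' => ?_) i
      · rw [Fin.cons_zero]
        intro h0
        rw [h0] at hs1
        simp [sz] at hs1
      · rw [Fin.cons_succ]
        exact hx i'
    · rw [Fin.sum_univ_succ]
      simp only [Fin.cons_zero, Fin.cons_succ]
      rw [hxs, hq']

lemma LL_reduce {k a : ℕ} (L : (Fin a → (Fin k → ℕ)) → ℂ) (s : ℕ)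
    (hs : ∀ q' : Fin k → ℕ, q' ≠ 0 → sz q' < s →
      ∀ p : Fin a → (Fin k → ℕ), ∑ r, L (p + Pi.single r q') = 0) :
    ∀ (l : ℕ) (x : Fin (l + 1) → (Fin k → ℕ)), (∀ i, x i ≠ 0) → sz (∑ i, x i) ≤ s →
      ∀ p : Fin a → (Fin k → ℕ),
        LL L (l + 1) x p = (-1) ^ l * (l.factorial : ℂ) * LL L 1 (fun _ => ∑ i, x i) p := by
  intro l
  induction l with
  | zero =>
    intro x _ _ p
    have : x = fun _ => ∑ i, x i := by
      funext i
      have hi : i = 0 := Fin.eq_zero i
      rw [Fin.sum_univ_one, hi]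
    rw [← this]
    simp
  | succ l ih =>
    intro x hx hsx p
    have hsum : ∑ i, x i = x 0 + ∑ i : Fin (l + 1), x i.succ := Fin.sum_univ_succ x
    have hrest : 1 ≤ sz (∑ i : Fin (l + 1), x i.succ) := by
      rw [Fin.sum_univ_succ, sz_add]
      have := sz_pos _ (hx (Fin.succ 0))
      omega
    have h0 : sz (x 0) < s := by
      rw [hsum, sz_add] at hsx
      omega
    have hpeel := peel L (x 0) (hs (x 0) (hx 0) h0) (l + 1) (Fin.tail x) p
    rw [Fin.cons_self_tail] at hpeel
    rw [hpeel]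
    have hy : ∀ i : Fin (l + 1), LL L (l + 1) (Fin.tail x + Pi.single i (x 0)) p
        = (-1) ^ l * (l.factorial : ℂ) * LL L 1 (fun _ => ∑ i, x i) p := by
      intro i
      have hys : ∑ i', (Fin.tail x + Pi.single i (x 0) : Fin (l + 1) → (Fin k → ℕ)) i'
          = ∑ i, x i := by
        simp only [Pi.add_apply, Finset.sum_add_distrib, Finset.sum_pi_single', mem_univ, if_true]
        rw [hsum, add_comm]
        rfl
      have := ih (Fin.tail x + Pi.single i (x 0)) ?_ (by rw [hys]; exact hsx) p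
      · rw [this, hys]
      · intro i' h
        apply hx i'.succ
        funext j
        have hj := congrFun h j
        simp only [Pi.add_apply, Pi.zero_apply, Nat.add_eq_zero_iff] at hj
        exact hj.1
    simp only [hy, sum_const, card_univ, Fintype.card_fin, nsmul_eq_mul, Nat.factorial_succ]
    push_cast
    ring

/-- If the functional kills the ideal generated by the power sums `P_q`, `1 ≤ |q| ≤ a`, then it
kills the ideal generated by all the power sums `P_q`, `q ≠ 0`. -/
theorem fft_all {k a : ℕ} (L : (Fin a → (Fin k → ℕ)) → ℂ)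
    (Hs : ∀ q : Fin k → ℕ, 1 ≤ ∑ i, q i → ∑ i, q i ≤ a →
      ∀ p : Fin a → (Fin k → ℕ), ∑ r, L (p + Pi.single r q) = 0) :
    ∀ q : Fin k → ℕ, q ≠ 0 → ∀ p : Fin a → (Fin k → ℕ), ∑ r, L (p + Pi.single r q) = 0 := by
  have key : ∀ s : ℕ, ∀ q : Fin k → ℕ, q ≠ 0 → sz q = s →
      ∀ p : Fin a → (Fin k → ℕ), ∑ r, L (p + Pi.single r q) = 0 := by
    intro s
    induction s using Nat.strong_induction_on with
    | _ s ih =>
      intro q hq hqs p
      by_cases hsa : s ≤ a
      · exact Hs q (sz_pos q hq) (by rw [← hqs] at hsa; exact hsa) p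
      · obtain ⟨x, hx, hxs⟩ := exists_decomp a q (by omega)
        have hred := LL_reduce L s (fun q' hq' hlt => ih (sz q') hlt q' hq' rfl) a x hx
          (by rw [hxs, hqs]) p
        rw [LL_big, hxs, LL_one] at hred
        have hc : ((-1 : ℂ) ^ a * (a.factorial : ℂ)) ≠ 0 := by
          apply mul_ne_zero
          · exact pow_ne_zero _ (by norm_num)
          · exact_mod_cast Nat.factorial_ne_zero a
        exact (mul_eq_zero.1 hred.symm).resolve_left hc
  intro q hq p
  exact key (sz q) q hq rfl p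

end Vale.Agent.Lib.P181
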