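import Mathlib

/-!
# P181: a combinatorial form of the first fundamental theorem for multisymmetric functions

`L` is a function of `a`-tuples `p = (p_0, …, p_(a-1))` of vectors `p_r : Fin k → ℕ`.
Think of `L p` as the value of a linear functional on the monomial `∏_r t_r^(p_r)`; the sum
`∑ r, L (p + Pi.single r q)` is its value on `P_q * ∏_r t_r^(p_r)`, `P_q = ∑_r t_r^q` the power sum.
-/

namespace Vale.Agent.Lib.P181

/-- A symmetric functional killing the ideal generated by all the power sums vanishes on all
nonconstant monomials. -/
theorem fft_zero {k a : ℕ} (L : (Fin a → (Fin k → ℕ)) → ℂ)
    (Hall : ∀ q : Fin k → ℕ, q ≠ 0 →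
      ∀ p : Fin a → (Fin k → ℕ), ∑ r, L (p + Pi.single r q) = 0)
    (Hsym : ∀ (p : Fin a → (Fin k → ℕ)) (r s : Fin a), L (p ∘ Equiv.swap r s) = L p) :
    ∀ p : Fin a → (Fin k → ℕ), p ≠ 0 → L p = 0 := by
  classical
  have key : ∀ m : ℕ, ∀ p : Fin a → (Fin k → ℕ),
      (Finset.univ.filter fun r => p r ≠ 0).card = m → p ≠ 0 → L p = 0 := by
    intro m
    induction m using Nat.strong_induction_on with
    | _ m ih =>
      intro p hm hp
      obtain ⟨r0, hr0⟩ : ∃ r0, p r0 ≠ 0 := by
        by_contra h
        push Not at h
        exact hp (funext h)
      have H := Hall (p r0) hr0 (Function.update p r0 0)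
      have hterm : ∀ r, L (Function.update p r0 0 + Pi.single r (p r0)) =
          if Function.update p r0 0 r = 0 then L p else 0 := by
        intro r
        by_cases h : Function.update p r0 0 r = 0
        · rw [if_pos h]
          have heq : Function.update p r0 0 + Pi.single r (p r0) = p ∘ Equiv.swap r r0 := by
            by_cases hrr : r = r0
            · subst hrr
              funext s
              rw [Equiv.swap_self]
              by_cases hs : s = r
              · subst hs
                simp
              · simp [Function.update_of_ne hs, Pi.single_eq_of_ne hs]
            · rw [Function.update_of_ne hrr] at h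
              funext s
              simp only [Pi.add_apply, Function.comp]
              rcases eq_or_ne s r with rfl | hs
              · rw [Function.update_of_ne hrr, Pi.single_eq_same, Equiv.swap_apply_left, h, zero_add]
              · rcases eq_or_ne s r0 with rfl | hs0
                · rw [Function.update_self, Pi.single_eq_of_ne hs, Equiv.swap_apply_right, h,
                    zero_add]
                · rw [Function.update_of_ne hs0, Pi.single_eq_of_ne hs,
                    Equiv.swap_apply_of_ne_of_ne hs hs0, add_zero]
          rw [heq, Hsym]
        · rw [if_neg h]
          have hrr : r ≠ r0 := by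
            rintro rfl
            exact h (Function.update_self _ _ _)
          have hpr : p r ≠ 0 := by rwa [Function.update_of_ne hrr] at h
          have hne : ∀ s, (Function.update p r0 0 + Pi.single r (p r0) : Fin a → (Fin k → ℕ)) s ≠ 0 ↔
              s ≠ r0 ∧ p s ≠ 0 := by
            intro s
            simp only [Pi.add_apply]
            rcases eq_or_ne s r0 with rfl | hs0
            · rw [Function.update_self, Pi.single_eq_of_ne hrr.symm, zero_add]
              simp
            · rw [Function.update_of_ne hs0]
              rcases eq_or_ne s r with rfl | hs
              · rw [Pi.single_eq_same]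
                constructor
                · intro _
                  exact ⟨hs0, hpr⟩
                · intro _ h0
                  apply hpr
                  funext i
                  have := congrFun h0 i
                  simp only [Pi.add_apply, Pi.zero_apply, Nat.add_eq_zero_iff] at this
                  exact this.1
              · rw [Pi.single_eq_of_ne hs, add_zero]
                exact ⟨fun h1 => ⟨hs0, h1⟩, fun h1 => h1.2⟩
          have hfil : (Finset.univ.filter fun s =>
              (Function.update p r0 0 + Pi.single r (p r0) : Fin a → (Fin k → ℕ)) s ≠ 0) =
              (Finset.univ.filter fun s => p s ≠ 0).erase r0 := by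
            ext s
            rw [Finset.mem_filter, Finset.mem_erase, Finset.mem_filter, hne s]
            simp
          have hmem : r0 ∈ Finset.univ.filter fun s => p s ≠ 0 := by simp [hr0]
          have hcard : (Finset.univ.filter fun s =>
              (Function.update p r0 0 + Pi.single r (p r0) : Fin a → (Fin k → ℕ)) s ≠ 0).card < m := by
            rw [hfil, Finset.card_erase_of_mem hmem, hm]
            have : 0 < m := by rw [← hm]; exact Finset.card_pos.2 ⟨_, hmem⟩
            omega
          apply ih _ hcard _ rfl
          intro h0
          exact ((hne r).2 ⟨hrr, hpr⟩) (congrFun h0 r)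
      rw [Finset.sum_congr rfl (fun r _ => hterm r), Finset.sum_ite, Finset.sum_const_zero,
        add_zero, Finset.sum_const, nsmul_eq_mul] at H
      have hpos : (Finset.univ.filter fun r => Function.update p r0 0 r = 0).card ≠ 0 := by
        apply Finset.card_ne_zero_of_mem (a := r0)
        simp
      rcases mul_eq_zero.1 H with h1 | h1
      · exact absurd (by exact_mod_cast h1) hpos
      · exact h1
  intro p hp
  exact key _ p rfl hp

end Vale.Agent.Lib.P181
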