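import Vale.Agent.Lib.P181.Defs

/-!
# P181: the stable model

`PolyRing k` is used with variables `Y_p = X p`, `p : Fin k → ℕ` (the letter `0` of `ℂ^(k+1)` has been
forgotten: `X_m` of `PolyRing (k+1)` corresponds to `Y_(tail m)`).
-/

namespace Vale.Agent.Lib.P181

open MvPolynomial

variable {k : ℕ}

/-- the size of an exponent vector -/
def tsize (p : Fin k → ℕ) : ℕ := ∑ i, p i

/-- product of binomial coefficients -/
def bin (p q : Fin k → ℕ) : ℕ := ∏ i, (p i).choose (q i)

/-- the derivation `Y_p ↦ binom(p,q) Y_(p-q)` -/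
noncomputable def Tq (k : ℕ) (q : Fin k → ℕ) : Derivation ℂ (PolyRing k) (PolyRing k) :=
  mkDerivation ℂ fun p => C (bin p q : ℂ) * X (p - q)

/-- the derivation `Y_p ↦ p_j Y_(p-e_j)`: the action of `E_{0,j+1}` -/
noncomputable def low (k : ℕ) (j : Fin k) : Derivation ℂ (PolyRing k) (PolyRing k) :=
  mkDerivation ℂ fun p => C (p j : ℂ) * X (p - Pi.single j 1)

/-- the vectors of size between `1` and `a` -/
def Va (k a : ℕ) : Finset (Fin k → ℕ) :=
  (Fintype.piFinset fun _ => Finset.range (a + 1)).filter fun q => 1 ≤ tsize q ∧ tsize q ≤ a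

/-- auxiliary sequence for `Spoly` -/
noncomputable def Sseq (k a : ℕ) : ℕ → (Fin k → ℕ) → PolyRing k
  | 0, p => if p = 0 then 1 else 0
  | N + 1, p => if p = 0 then 1 else
      C ((tsize p : ℂ)⁻¹) *
        ∑ q ∈ Va k a, C ((tsize q * bin p q : ℕ) : ℂ) * X q * Sseq k a N (p - q)

/-- `Spoly k a p = p! [t^p] exp (∑_{1 ≤ |q| ≤ a} Y_q t^q / q!)`: the `p`-th moment expressed through
cumulants `Y_q`, all cumulants of order `> a` being zero. -/
noncomputable def Spoly (k a : ℕ) (p : Fin k → ℕ) : PolyRing k := Sseq k a (tsize p) p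

/-- the algebra homomorphism `Y_p ↦ Spoly k a p` -/
noncomputable def Zhom (k a : ℕ) : PolyRing k →ₐ[ℂ] PolyRing k := aeval (Spoly k a)

/-- the stable model of the space of highest weight vectors: homogeneous polynomials of degree `a`
in the `Y_p`, `|p| ≤ b`, of weight `nu`, killed by all `low j` and all `raise i j`, `i < j`. -/
noncomputable def St (k a b : ℕ) (nu : Fin k → ℕ) : Submodule ℂ (PolyRing k) :=
  (supported ℂ {p : Fin k → ℕ | tsize p ≤ b}).toSubmodule ⊓
    homogeneousSubmodule (Fin k → ℕ) ℂ a ⊓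
    weightedHomogeneousSubmodule ℂ (fun p : Fin k → ℕ => p) nu ⊓
    (⨅ j : Fin k, LinearMap.ker (low k j).toLinearMap) ⊓
    ⨅ (i : Fin k) (j : Fin k) (_ : i < j), LinearMap.ker (raise k i j).toLinearMap

theorem mem_St {a b : ℕ} {nu : Fin k → ℕ} {F : PolyRing k} :
    F ∈ St k a b nu ↔
      (∀ p ∈ F.vars, tsize p ≤ b) ∧ F.IsHomogeneous a ∧
        IsWeightedHomogeneous (fun p : Fin k → ℕ => p) F nu ∧
        (∀ j : Fin k, low k j F = 0) ∧
        ∀ i j : Fin k, i < j → raise k i j F = 0 := by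
  unfold St
  simp only [Submodule.mem_inf, Subalgebra.mem_toSubmodule, mem_supported,
    mem_homogeneousSubmodule, mem_weightedHomogeneousSubmodule, Submodule.mem_iInf,
    LinearMap.mem_ker, Derivation.coeFn_coe]
  constructor
  · rintro ⟨⟨⟨⟨h1, h2⟩, h3⟩, h4⟩, h5⟩
    exact ⟨fun p hp => h1 hp, h2, h3, h4, h5⟩
  · rintro ⟨h1, h2, h3, h4, h5⟩
    exact ⟨⟨⟨⟨fun p hp => h1 p hp, h2⟩, h3⟩, h4⟩, h5⟩

theorem mem_Va {a : ℕ} {q : Fin k → ℕ} : q ∈ Va k a ↔ 1 ≤ tsize q ∧ tsize q ≤ a := by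
  unfold Va
  rw [Finset.mem_filter, Fintype.mem_piFinset]
  constructor
  · exact fun h => h.2
  · intro h
    refine ⟨fun i => ?_, h⟩
    rw [Finset.mem_range]
    have : q i ≤ tsize q := Finset.single_le_sum (f := q) (fun _ _ => Nat.zero_le _) (Finset.mem_univ i)
    omega

theorem Tq_X (q p : Fin k → ℕ) : Tq k q (X p) = C (bin p q : ℂ) * X (p - q) := by
  unfold Tq
  rw [mkDerivation_X]

theorem low_X (j : Fin k) (p : Fin k → ℕ) :
    low k j (X p) = C (p j : ℂ) * X (p - Pi.single j 1) := by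
  unfold low
  rw [mkDerivation_X]

theorem tsize_zero : tsize (0 : Fin k → ℕ) = 0 := by
  simp [tsize]

theorem tsize_eq_zero {p : Fin k → ℕ} : tsize p = 0 ↔ p = 0 := by
  unfold tsize
  rw [Finset.sum_eq_zero_iff]
  constructor
  · intro h
    funext i
    exact h i (Finset.mem_univ i)
  · intro h i _
    rw [h]
    rfl

theorem tsize_add (p q : Fin k → ℕ) : tsize (p + q) = tsize p + tsize q := by
  simp [tsize, Finset.sum_add_distrib]

theorem tsize_single (j : Fin k) (c : ℕ) : tsize (Pi.single j c : Fin k → ℕ) = c := by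
  simp [tsize]

theorem bin_single (p : Fin k → ℕ) (j : Fin k) : bin p (Pi.single j 1) = p j := by
  unfold bin
  rw [Finset.prod_eq_single j]
  · simp
  · intro i _ hi
    simp [hi]
  · intro h
    exact absurd (Finset.mem_univ j) h

theorem low_eq_Tq (j : Fin k) : low k j = Tq k (Pi.single j 1) := by
  apply derivation_ext
  intro p
  rw [low_X, Tq_X, bin_single]

theorem single_mem_Va {a : ℕ} (ha : 1 ≤ a) (j : Fin k) : (Pi.single j 1 : Fin k → ℕ) ∈ Va k a := by
  rw [mem_Va, tsize_single]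
  exact ⟨le_rfl, ha⟩

/-- `bin p q ≠ 0` forces `q ≤ p` -/
theorem le_of_bin_ne_zero {p q : Fin k → ℕ} (h : bin p q ≠ 0) : q ≤ p := by
  intro i
  by_contra hi
  apply h
  unfold bin
  apply Finset.prod_eq_zero (Finset.mem_univ i)
  exact Nat.choose_eq_zero_of_lt (not_le.mp hi)

theorem tsize_sub {p q : Fin k → ℕ} (h : q ≤ p) : tsize (p - q) + tsize q = tsize p := by
  rw [← tsize_add, tsub_add_cancel_of_le h]

end Vale.Agent.Lib.P181
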