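import Vale.Agent.Lib.P181.Stab
import Vale.Agent.Lib.P181.Stable.StDefs
import Vale.Agent.Lib.P181.Stable.FftAll
import Vale.Agent.Lib.P181.Stable.FftZero

/-!
# P181: polynomials of degree `a` killed by the `Tq k q`, `1 ≤ |q| ≤ a`
-/

namespace Vale.Agent.Lib.P181

open MvPolynomial

variable {k : ℕ}

/-- the constant coefficient of the iterated derivative along the variables `p 0, …, p (a-1)` -/
noncomputable def ellL : (a : ℕ) → (Fin a → (Fin k → ℕ)) → PolyRing k → ℂ
  | 0, _, F => constantCoeff F
  | a + 1, p, F => ellL a (Fin.tail p) (pderiv (p 0) F)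

theorem ellL_zero (p : Fin 0 → (Fin k → ℕ)) (F : PolyRing k) :
    ellL 0 p F = constantCoeff F := rfl

theorem ellL_succ (a : ℕ) (p : Fin (a + 1) → (Fin k → ℕ)) (F : PolyRing k) :
    ellL (a + 1) p F = ellL a (Fin.tail p) (pderiv (p 0) F) := rfl

theorem ellL_add (a : ℕ) (p : Fin a → (Fin k → ℕ)) (F G : PolyRing k) :
    ellL a p (F + G) = ellL a p F + ellL a p G := by
  induction a generalizing F G with
  | zero => simp [ellL_zero]
  | succ a ih => rw [ellL_succ, ellL_succ, ellL_succ, map_add, ih]

theorem ellL_C_mul (a : ℕ) (p : Fin a → (Fin k → ℕ)) (c : ℂ) (F : PolyRing k) :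
    ellL a p (C c * F) = c * ellL a p F := by
  induction a generalizing F with
  | zero => simp [ellL_zero]
  | succ a ih => rw [ellL_succ, ellL_succ, pderiv_C_mul, ih]

theorem ellL_map_zero (a : ℕ) (p : Fin a → (Fin k → ℕ)) :
    ellL a p (0 : PolyRing k) = 0 := by
  have := ellL_C_mul a p 0 (0 : PolyRing k)
  simpa using this

theorem pderiv_comm' (x y : Fin k → ℕ) (F : PolyRing k) :
    pderiv x (pderiv y F) = pderiv y (pderiv x F) := by
  have key : ⁅(pderiv x : Derivation ℂ (PolyRing k) (PolyRing k)),
      (pderiv y : Derivation ℂ (PolyRing k) (PolyRing k))⁆ = 0 := by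
    apply derivation_ext
    intro m
    rw [Derivation.commutator_apply, pderiv_X, pderiv_X]
    have h1 : ∀ (z w : Fin k → ℕ), (pderiv z : Derivation ℂ (PolyRing k) (PolyRing k))
        ((Pi.single w 1 : (Fin k → ℕ) → PolyRing k) m) = 0 := by
      intro z w
      rw [Pi.single_apply]
      split_ifs
      · exact Derivation.map_one_eq_zero _
      · exact map_zero _
    rw [h1, h1]
    simp
  have := congrArg (fun D : Derivation ℂ (PolyRing k) (PolyRing k) => D F) key
  simp only [Derivation.commutator_apply, Derivation.coe_zero, Pi.zero_apply] at this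
  exact sub_eq_zero.mp this

theorem ellL_eq_foldl (a : ℕ) (p : Fin a → (Fin k → ℕ)) (F : PolyRing k) :
    ellL a p F = constantCoeff ((List.ofFn p).foldl (fun G x => pderiv x G) F) := by
  induction a generalizing F with
  | zero => simp [ellL_zero]
  | succ a ih =>
    rw [ellL_succ, ih, List.ofFn_succ, List.foldl_cons]
    rfl

theorem ellL_perm (a : ℕ) (p : Fin a → (Fin k → ℕ)) (σ : Equiv.Perm (Fin a)) (F : PolyRing k) :
    ellL a (p ∘ σ) F = ellL a p F := by
  rw [ellL_eq_foldl, ellL_eq_foldl]
  have : RightCommutative (fun (G : PolyRing k) (x : Fin k → ℕ) => pderiv x G) :=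
    ⟨fun G x y => pderiv_comm' y x G⟩
  rw [(Equiv.Perm.ofFn_comp_perm σ p).foldl_eq]

theorem pderiv_Tq (p q : Fin k → ℕ) (F : PolyRing k) :
    pderiv p (Tq k q F) = Tq k q (pderiv p F) + C (bin (p + q) q : ℂ) * pderiv (p + q) F := by
  have key : ⁅(pderiv p : Derivation ℂ (PolyRing k) (PolyRing k)), Tq k q⁆
      = (bin (p + q) q : ℂ) • (pderiv (p + q) : Derivation ℂ (PolyRing k) (PolyRing k)) := by
    apply derivation_ext
    intro m
    rw [Derivation.commutator_apply, Tq_X, pderiv_C_mul, pderiv_X, pderiv_X,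
      Derivation.smul_apply, pderiv_X]
    have h0 : Tq k q ((Pi.single p 1 : (Fin k → ℕ) → PolyRing k) m) = 0 := by
      rw [Pi.single_apply]
      split_ifs
      · exact Derivation.map_one_eq_zero _
      · exact map_zero _
    rw [h0, sub_zero]
    by_cases hm : m = p + q
    · subst hm
      simp [smul_eq_C_mul]
    · rw [Pi.single_apply, Pi.single_apply, if_neg hm, smul_zero]
      by_cases hb : bin m q = 0
      · simp [hb]
      · have hle := le_of_bin_ne_zero hb
        have : ¬ (m - q = p) := by
          intro h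
          apply hm
          rw [← h, tsub_add_cancel_of_le hle]
        rw [if_neg this, mul_zero]
  have := congrArg (fun D : Derivation ℂ (PolyRing k) (PolyRing k) => D F) key
  simp only [Derivation.commutator_apply, Derivation.smul_apply, smul_eq_C_mul] at this
  rw [← this]
  ring

theorem constantCoeff_Tq (q : Fin k → ℕ) (F : PolyRing k) :
    constantCoeff (Tq k q F) = 0 := by
  induction F using MvPolynomial.induction_on with
  | C c => simp
  | add p q hp hq => simp [hp, hq]
  | mul_X p m hp =>
    rw [Derivation.leibniz, Tq_X]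
    simp [hp]

theorem ellL_Tq (a : ℕ) (p : Fin a → (Fin k → ℕ)) (q : Fin k → ℕ) (F : PolyRing k) :
    ellL a p (Tq k q F) = ∑ r, (bin (p r + q) q : ℂ) * ellL a (p + Pi.single r q) F := by
  induction a generalizing F with
  | zero => simp [ellL_zero, constantCoeff_Tq]
  | succ a ih =>
    rw [ellL_succ, pderiv_Tq, ellL_add, ih, ellL_C_mul, Fin.sum_univ_succ]
    have e0 : ellL (a + 1) (p + Pi.single 0 q) F = ellL a (Fin.tail p) (pderiv (p 0 + q) F) := by
      rw [ellL_succ]
      have t1 : Fin.tail (p + Pi.single 0 q) = Fin.tail p := by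
        funext s
        simp only [Fin.tail, Pi.add_apply]
        rw [Pi.single_eq_of_ne (Fin.succ_ne_zero s), add_zero]
      have t2 : (p + Pi.single 0 q : Fin (a + 1) → (Fin k → ℕ)) 0 = p 0 + q := by
        rw [Pi.add_apply, Pi.single_eq_same]
      rw [t1, t2]
    have e1 : ∀ r : Fin a, ellL (a + 1) (p + Pi.single r.succ q) F
        = ellL a (Fin.tail p + Pi.single r q) (pderiv (p 0) F) := by
      intro r
      rw [ellL_succ]
      have t1 : Fin.tail (p + Pi.single r.succ q) = Fin.tail p + Pi.single r q := by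
        funext s
        simp only [Fin.tail, Pi.add_apply]
        by_cases h : s = r
        · subst h
          rw [Pi.single_eq_same, Pi.single_eq_same]
        · rw [Pi.single_eq_of_ne h, Pi.single_eq_of_ne]
          intro h'
          exact h (Fin.succ_injective _ h')
      have t2 : (p + Pi.single r.succ q : Fin (a + 1) → (Fin k → ℕ)) 0 = p 0 := by
        rw [Pi.add_apply, Pi.single_eq_of_ne (Fin.succ_ne_zero r).symm, add_zero]
      rw [t1, t2]
    rw [e0, add_comm]
    congr 1
    apply Finset.sum_congr rfl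
    intro r _
    rw [e1]
    rfl

/-- product of the factorials of the entries -/
noncomputable def vfact (p : Fin k → ℕ) : ℂ := ∏ i, ((p i).factorial : ℂ)

theorem vfact_ne_zero (p : Fin k → ℕ) : vfact p ≠ 0 := by
  unfold vfact
  rw [Finset.prod_ne_zero_iff]
  intro i _
  exact_mod_cast Nat.factorial_ne_zero _

theorem vfact_add (x q : Fin k → ℕ) :
    vfact (x + q) = (bin (x + q) q : ℂ) * vfact q * vfact x := by
  unfold vfact bin
  rw [Nat.cast_prod, ← Finset.prod_mul_distrib, ← Finset.prod_mul_distrib]
  apply Finset.prod_congr rfl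
  intro i _
  have h := Nat.choose_mul_factorial_mul_factorial (Nat.le_add_left (q i) (x i))
  rw [Nat.add_sub_cancel] at h
  rw [Pi.add_apply]
  exact_mod_cast h.symm

theorem prod_vfact_add_single {a : ℕ} (p : Fin a → (Fin k → ℕ)) (r0 : Fin a) (q : Fin k → ℕ) :
    ∏ r, vfact ((p + Pi.single r0 q : Fin a → (Fin k → ℕ)) r)
      = ((bin (p r0 + q) q : ℂ) * vfact q) * ∏ r, vfact (p r) := by
  have h : ∀ r, vfact ((p + Pi.single r0 q : Fin a → (Fin k → ℕ)) r)
      = (if r = r0 then (bin (p r0 + q) q : ℂ) * vfact q else 1) * vfact (p r) := by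
    intro r
    by_cases hr : r = r0
    · subst hr
      rw [if_pos rfl, Pi.add_apply, Pi.single_eq_same, vfact_add]
    · rw [if_neg hr, Pi.add_apply, Pi.single_eq_of_ne hr, add_zero, one_mul]
  rw [Finset.prod_congr rfl (fun r _ => h r), Finset.prod_mul_distrib, Finset.prod_ite_eq']
  simp

theorem eq_zero_of_ellL (n : ℕ) (G : PolyRing k) (hG : G.IsHomogeneous n)
    (h : ∀ p : Fin n → (Fin k → ℕ), ellL n p G = 0) : G = 0 := by
  induction n generalizing G with
  | zero =>
    have h0 := h 0
    rw [ellL_zero] at h0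
    rw [← totalDegree_zero_iff_isHomogeneous, totalDegree_eq_zero_iff_eq_C] at hG
    rw [hG]
    rw [constantCoeff_eq] at h0
    rw [h0, C_0]
  | succ n ih =>
    have hd : ∀ x : Fin k → ℕ, pderiv x G = 0 := by
      intro x
      apply ih _ hG.pderiv
      intro p
      have := h (Fin.cons x p)
      rw [ellL_succ] at this
      simpa using this
    by_contra hne
    obtain ⟨d, hd'⟩ := (MvPolynomial.ne_zero_iff).mp hne
    have hdeg := hG hd'
    have : d ≠ 0 := by
      rintro rfl
      simp at hdeg
    obtain ⟨x, hx⟩ := Finsupp.ne_iff.mp this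
    apply notMem_vars_of_pderiv_eq_zero (hd x)
    rw [mem_vars_iff_mem_support]
    exact ⟨d, mem_support_iff.mpr hd', Finsupp.mem_support_iff.mpr hx⟩

/-- **Hard J-lemma.** A homogeneous polynomial of degree `a` in the `Y_p` which is killed by all the
derivations `Tq k q`, `1 ≤ |q| ≤ a`, only involves the variable `Y_0`. -/
theorem J_hard {a : ℕ} {F : PolyRing k} (hF : F.IsHomogeneous a)
    (hT : ∀ q ∈ Va k a, Tq k q F = 0) : ∀ p ∈ F.vars, p = 0 := by
  have hL : ∀ p : Fin a → (Fin k → ℕ), p ≠ 0 → (∏ r, vfact (p r)) * ellL a p F = 0 := by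
    apply fft_zero (fun p => (∏ r, vfact (p r)) * ellL a p F)
    · apply fft_all (fun p => (∏ r, vfact (p r)) * ellL a p F)
      intro q h1 h2 p
      have hq : Tq k q F = 0 := hT q (mem_Va.mpr ⟨h1, h2⟩)
      have hE := ellL_Tq a p q F
      rw [hq, ellL_map_zero] at hE
      have : ∀ r, (∏ s, vfact ((p + Pi.single r q : Fin a → (Fin k → ℕ)) s))
            * ellL a (p + Pi.single r q) F
          = (vfact q * ∏ s, vfact (p s)) * ((bin (p r + q) q : ℂ) * ellL a (p + Pi.single r q) F) := by
        intro r
        rw [prod_vfact_add_single]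
        ring
      rw [Finset.sum_congr rfl (fun r _ => this r), ← Finset.mul_sum, ← hE, mul_zero]
    · intro p r s
      rw [ellL_perm]
      congr 1
      exact Equiv.prod_comp (Equiv.swap r s) (fun t => vfact (p t))
  have hE : ∀ p : Fin a → (Fin k → ℕ), p ≠ 0 → ellL a p F = 0 := by
    intro p hp
    rcases mul_eq_zero.mp (hL p hp) with h | h
    · exfalso
      rw [Finset.prod_eq_zero_iff] at h
      obtain ⟨r, _, hr⟩ := h
      exact vfact_ne_zero _ hr
    · exact h
  intro x hx
  by_contra hx0
  apply notMem_vars_of_pderiv_eq_zero (F := F) (m := x) _ hx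
  cases a with
  | zero =>
    rw [← totalDegree_zero_iff_isHomogeneous, totalDegree_eq_zero_iff_eq_C] at hF
    rw [hF, pderiv_C]
  | succ n =>
    apply eq_zero_of_ellL n _ hF.pderiv
    intro p
    have := hE (Fin.cons x p) (by
      intro h
      apply hx0
      have := congrFun h 0
      simpa using this)
    rw [ellL_succ] at this
    simpa using this

end Vale.Agent.Lib.P181
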