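import Vale.Agent.Lib.P181.Stable.StDefs

/-!
# P181: Euler operators; degrees, weights and variables under the derivations
-/

namespace Vale.Agent.Lib.P181

open MvPolynomial

variable {k : ℕ}

section General

variable {σ : Type*}

/-- a derivation `Y_p ↦ c_p Y_(g p)` lowering the weight by `δ` -/
theorem mkD_isWeightedHomogeneous (w : σ → ℕ) (c : σ → ℂ) (g : σ → σ) (δ : ℕ)
    (hg : ∀ p, c p ≠ 0 → w (g p) + δ = w p) {F : MvPolynomial σ ℂ} {N : ℕ}
    (hF : IsWeightedHomogeneous w F N) :
    IsWeightedHomogeneous w (mkDerivation ℂ (fun p => C (c p) * X (g p)) F) (N - δ) := by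
  classical
  rw [← F.support_sum_monomial_coeff, map_sum]
  refine IsWeightedHomogeneous.sum _ _ _ fun u hu => ?_
  have hw : Finsupp.weight w u = N := hF (mem_support_iff.1 hu)
  rw [mkDerivation_monomial, Finsupp.sum, Finset.smul_sum]
  refine IsWeightedHomogeneous.sum _ _ _ fun p hp => ?_
  rw [smul_eq_mul, smul_eq_C_mul]
  refine IsWeightedHomogeneous.C_mul ?_ _
  by_cases hc : c p = 0
  · rw [hc, C_0, zero_mul, mul_zero]
    exact isWeightedHomogeneous_zero _ _ _
  have hup : u = (u - Finsupp.single p 1) + Finsupp.single p 1 := by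
    rw [tsub_add_cancel_of_le]
    rw [Finsupp.single_le_iff]
    exact Nat.one_le_iff_ne_zero.2 (Finsupp.mem_support_iff.1 hp)
  have hw2 : Finsupp.weight w (u - Finsupp.single p 1) + w p = N := by
    rw [← hw]
    conv_rhs => rw [hup]
    rw [map_add, Finsupp.weight_single, one_smul]
  have h1 := hg p hc
  have h2 : N - δ = Finsupp.weight w (u - Finsupp.single p 1) + (0 + w (g p)) := by omega
  rw [h2]
  exact (isWeightedHomogeneous_monomial w _ _ rfl).mul
    ((isWeightedHomogeneous_C w _).mul (isWeightedHomogeneous_X ℂ w _))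

/-- a derivation preserving a set of variables -/
theorem mkD_supported (f : σ → MvPolynomial σ ℂ) (s : Set σ)
    (hf : ∀ p ∈ s, f p ∈ supported ℂ s) {F : MvPolynomial σ ℂ} (hF : F ∈ supported ℂ s) :
    mkDerivation ℂ f F ∈ supported ℂ s := by
  rw [supported_eq_adjoin_X] at hF
  induction hF using Algebra.adjoin_induction with
  | mem x hx =>
    obtain ⟨p, hp, rfl⟩ := hx
    rw [mkDerivation_X]
    exact hf p hp
  | algebraMap r =>
    rw [Derivation.map_algebraMap]
    exact zero_mem _
  | add x y hx hy ihx ihy =>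
    rw [map_add]
    exact add_mem ihx ihy
  | mul x y hx hy ihx ihy =>
    rw [Derivation.leibniz, smul_eq_mul, smul_eq_mul]
    rw [← supported_eq_adjoin_X] at hx hy
    exact add_mem (mul_mem hx ihy) (mul_mem hy ihx)

end General

theorem tsize_move (i j : Fin k) {p : Fin k → ℕ} (hp : p j ≠ 0) :
    tsize (p - Pi.single j 1 + Pi.single i 1) = tsize p := by
  have hle : (Pi.single j 1 : Fin k → ℕ) ≤ p := by
    intro l
    by_cases hl : l = j
    · subst hl
      rw [Pi.single_eq_same]
      exact Nat.one_le_iff_ne_zero.2 hp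
    · rw [Pi.single_eq_of_ne hl]
      exact Nat.zero_le _
  have h := tsize_sub hle
  rw [tsize_single] at h
  rw [tsize_add, tsize_single, h]

theorem tsize_sub_le (p q : Fin k → ℕ) : tsize (p - q) ≤ tsize p := by
  unfold tsize
  exact Finset.sum_le_sum fun i _ => Nat.sub_le _ _

theorem Tq_isHomogeneous (q : Fin k → ℕ) {F : PolyRing k} {d : ℕ} (h : F.IsHomogeneous d) :
    (Tq k q F).IsHomogeneous d :=
  mkD_isWeightedHomogeneous (1 : (Fin k → ℕ) → ℕ) (fun p => (bin p q : ℂ)) (fun p => p - q) 0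
    (fun _ _ => rfl) h

theorem Tq_tsize (q : Fin k → ℕ) {F : PolyRing k} {N : ℕ} (h : IsWeightedHomogeneous tsize F N) :
    IsWeightedHomogeneous tsize (Tq k q F) (N - tsize q) :=
  mkD_isWeightedHomogeneous tsize (fun p => (bin p q : ℂ)) (fun p => p - q) (tsize q)
    (fun _ hp => tsize_sub (le_of_bin_ne_zero fun h0 => hp (by rw [h0, Nat.cast_zero]))) h

theorem Tq_vars (q : Fin k → ℕ) {F : PolyRing k} {b : ℕ} (h : ∀ p ∈ F.vars, tsize p ≤ b) :
    ∀ p ∈ (Tq k q F).vars, tsize p ≤ b := by
  have hF : F ∈ supported ℂ {p : Fin k → ℕ | tsize p ≤ b} := by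
    rw [mem_supported]
    exact fun p hp => h p hp
  have h2 : Tq k q F ∈ supported ℂ {p : Fin k → ℕ | tsize p ≤ b} := by
    refine mkD_supported _ _ (fun p hp => ?_) hF
    refine mul_mem (Subalgebra.algebraMap_mem _ _) (X_mem_supported.2 ?_)
    exact le_trans (tsize_sub_le p q) hp
  rw [mem_supported] at h2
  exact fun p hp => h2 hp

theorem raise_isHomogeneous (i j : Fin k) {F : PolyRing k} {d : ℕ} (h : F.IsHomogeneous d) :
    (raise k i j F).IsHomogeneous d :=
  mkD_isWeightedHomogeneous (1 : (Fin k → ℕ) → ℕ) (fun p => (p j : ℂ))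
    (fun p => p - Pi.single j 1 + Pi.single i 1) 0 (fun _ _ => rfl) h

theorem raise_tsize (i j : Fin k) {F : PolyRing k} {N : ℕ} (h : IsWeightedHomogeneous tsize F N) :
    IsWeightedHomogeneous tsize (raise k i j F) N :=
  mkD_isWeightedHomogeneous tsize (fun p => (p j : ℂ))
    (fun p => p - Pi.single j 1 + Pi.single i 1) 0
    (fun _ hp => tsize_move i j fun h0 => hp (by rw [h0, Nat.cast_zero])) h

theorem raise_vars (i j : Fin k) {F : PolyRing k} {b : ℕ} (h : ∀ p ∈ F.vars, tsize p ≤ b) :
    ∀ p ∈ (raise k i j F).vars, tsize p ≤ b := by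
  have hF : F ∈ supported ℂ {p : Fin k → ℕ | tsize p ≤ b} := by
    rw [mem_supported]
    exact fun p hp => h p hp
  have h2 : raise k i j F ∈ supported ℂ {p : Fin k → ℕ | tsize p ≤ b} := by
    refine mkD_supported _ _ (fun p hp => ?_) hF
    by_cases h0 : p j = 0
    · rw [h0, Nat.cast_zero, C_0, zero_mul]
      exact zero_mem _
    refine mul_mem (Subalgebra.algebraMap_mem _ _) (X_mem_supported.2 ?_)
    have := tsize_move i j h0
    exact le_of_eq_of_le this hp
  rw [mem_supported] at h2
  exact fun p hp => h2 hp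

theorem tsize_weight (d : (Fin k → ℕ) →₀ ℕ) :
    Finsupp.weight tsize d = tsize (Finsupp.weight (fun p : Fin k → ℕ => p) d) := by
  induction d using Finsupp.induction_linear with
  | zero => rw [map_zero, map_zero, tsize_zero]
  | add f g hf hg => rw [map_add, map_add, tsize_add, hf, hg]
  | single p c =>
    rw [Finsupp.weight_single, Finsupp.weight_single]
    unfold tsize
    simp [Finset.mul_sum]

theorem tsize_of_weight {F : PolyRing k} {nu : Fin k → ℕ}
    (h : IsWeightedHomogeneous (fun p : Fin k → ℕ => p) F nu) :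
    IsWeightedHomogeneous tsize F (tsize nu) := by
  intro d hd
  rw [tsize_weight, h hd]

/-- a variable of a polynomial of `tsize`-weight `N` has size at most `N` -/
theorem tsize_le_of_mem_vars {F : PolyRing k} {N : ℕ} (h : IsWeightedHomogeneous tsize F N)
    {p : Fin k → ℕ} (hp : p ∈ F.vars) : tsize p ≤ N := by
  obtain ⟨d, hd, hpd⟩ := (mem_vars_iff_mem_support p).1 hp
  rw [← h (mem_support_iff.1 hd)]
  exact Finsupp.le_weight_of_ne_zero' tsize (Finsupp.mem_support_iff.1 hpd)

/-- if no variable is `Y_0`, the degree is bounded by the `tsize`-weight -/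
theorem totalDegree_le_of_tsize {F : PolyRing k} {N : ℕ} (h : IsWeightedHomogeneous tsize F N)
    (h0 : ∀ p ∈ F.vars, p ≠ 0) : F.totalDegree ≤ N := by
  unfold totalDegree
  refine Finset.sup_le fun d hd => ?_
  rw [← h (mem_support_iff.1 hd), Finsupp.weight_apply]
  unfold Finsupp.sum
  refine Finset.sum_le_sum fun p hp => ?_
  have hp0 : p ≠ 0 := h0 p ((mem_vars_iff_mem_support p).2 ⟨d, hd, hp⟩)
  have h1 : 1 ≤ tsize p := Nat.one_le_iff_ne_zero.2 fun h2 => hp0 (tsize_eq_zero.1 h2)
  change d p ≤ d p * tsize p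
  exact Nat.le_mul_of_pos_right _ h1

end Vale.Agent.Lib.P181
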