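import Vale.Agent.Lib.P181.Stab
import Vale.Agent.Lib.P181.Stable.StFin

/-!
# P181: stability in the outer degree (stable model)

Multiplication by `Y_0 = X 0` maps `St (k+1) c a nu` onto `St (k+1) (c+1) a nu` as soon as
`|nu| + nu_0 < 2 (c+1)`.
-/

namespace Vale.Agent.Lib.P181

open MvPolynomial

variable {k : ℕ}


theorem derivation_sum_apply {n : ℕ} {ι : Type} (s : Finset ι)
    (D : ι → Derivation ℂ (PolyRing n) (PolyRing n)) (F : PolyRing n) :
    (∑ m ∈ s, D m) F = ∑ m ∈ s, D m F := by
  have h := congrFun (map_sum (Derivation.coeFnAddMonoidHom (R := ℂ) (A := PolyRing n)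
    (M := PolyRing n)) D s) F
  rw [Finset.sum_apply] at h
  exact h

/-- a raising operator as a combination of partial derivatives -/
theorem raise_eq_sum {n : ℕ} (i j : Fin n) (F : PolyRing n) :
    raise n i j F = ∑ m ∈ F.vars,
      pderiv m F * (C (m j : ℂ) * X (m - Pi.single j 1 + Pi.single i 1)) := by
  classical
  have h : raise n i j F = (∑ m ∈ F.vars, (C (m j : ℂ) * X (m - Pi.single j 1 + Pi.single i 1) :
      PolyRing n) • (pderiv m : Derivation ℂ (PolyRing n) (PolyRing n))) F := by
    apply derivation_eq_of_forall_mem_vars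
    intro p hp
    rw [raise_X, derivation_sum_apply, Finset.sum_eq_single p]
    · simp
    · intro m _ hm
      rw [Derivation.smul_apply, pderiv_X, Pi.single_apply, if_neg (Ne.symm hm), smul_zero]
    · intro h
      exact absurd hp h
  rw [h, derivation_sum_apply]
  apply Finset.sum_congr rfl
  intro m _
  rw [Derivation.smul_apply, smul_eq_mul, mul_comm]

theorem coeff_term {n : ℕ} (F : PolyRing n) (m m' : Fin n → ℕ) (c : ℂ)
    (u : (Fin n → ℕ) →₀ ℕ) :
    coeff u (pderiv m F * (C c * X m')) =
      if m' ∈ u.support then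
        c * (coeff (u - Finsupp.single m' 1 + Finsupp.single m 1) F
          * (((u - Finsupp.single m' 1 : (Fin n → ℕ) →₀ ℕ) m : ℂ) + 1))
      else 0 := by
  classical
  rw [mul_left_comm, coeff_C_mul, coeff_mul_X']
  split_ifs with h
  · rw [coeff_pderiv]
  · rw [mul_zero]

/-- number of factors `Y_(e_j)`, `j > 0` -/
def sfun (u : (Fin (k + 1) → ℕ) →₀ ℕ) : ℕ := ∑ i : Fin k, u (Pi.single i.succ 1)

theorem good_aux {F : PolyRing (k + 1)}
    (hE : ∀ j : Fin (k + 1), 0 < j → raise (k + 1) 0 j F = 0) :
    ∀ (s : ℕ) (u : (Fin (k + 1) → ℕ) →₀ ℕ), coeff u F ≠ 0 → u 0 = 0 → sfun u = s →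
    ∃ v : (Fin (k + 1) → ℕ) →₀ ℕ, coeff v F ≠ 0 ∧ v 0 = 0 ∧
      ∀ j : Fin (k + 1), 0 < j → v (Pi.single j 1) = 0 := by
  classical
  intro s
  induction s using Nat.strong_induction_on with
  | _ s ih =>
    intro u hu hu0 hs
    by_cases hgood : ∀ j : Fin (k + 1), 0 < j → u (Pi.single j 1) = 0
    · exact ⟨u, hu, hu0, hgood⟩
    · push Not at hgood
      obtain ⟨j, hj, huj⟩ := hgood
      obtain ⟨i0, rfl⟩ := Fin.exists_succ_eq.mpr (ne_of_gt hj)
      have hejv : (Pi.single i0.succ 1 : Fin (k + 1) → ℕ) ∈ F.vars := by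
        rw [mem_vars_iff_mem_support]
        exact ⟨u, mem_support_iff.mpr hu, Finsupp.mem_support_iff.mpr huj⟩
      have h0 : coeff (u - Finsupp.single (Pi.single i0.succ 1) 1 + Finsupp.single (Pi.single 0 1) 1)
          (raise (k + 1) 0 i0.succ F) = 0 := by
        rw [hE _ hj, coeff_zero]
      rw [raise_eq_sum, coeff_sum, ← Finset.add_sum_erase _ _ hejv] at h0
      have hle : Finsupp.single (Pi.single i0.succ 1 : Fin (k + 1) → ℕ) 1 ≤ u := by
        rw [Finsupp.single_le_iff]
        exact Nat.one_le_iff_ne_zero.mpr huj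
      have hmain : coeff
          (u - Finsupp.single (Pi.single i0.succ 1) 1 + Finsupp.single (Pi.single 0 1) 1)
          (pderiv (Pi.single i0.succ 1) F *
            (C (((Pi.single i0.succ 1 : Fin (k + 1) → ℕ) i0.succ : ℕ) : ℂ) *
              X ((Pi.single i0.succ 1 : Fin (k + 1) → ℕ) - Pi.single i0.succ 1 + Pi.single 0 1)))
          ≠ 0 := by
        rw [coeff_term, tsub_self, zero_add, if_pos (by simp), add_tsub_cancel_right,
          tsub_add_cancel_of_le hle]
        apply mul_ne_zero (by simp)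
        apply mul_ne_zero hu
        exact Nat.cast_add_one_ne_zero _
      have hrest : ∑ m ∈ F.vars.erase (Pi.single i0.succ 1), coeff
          (u - Finsupp.single (Pi.single i0.succ 1) 1 + Finsupp.single (Pi.single 0 1) 1)
          (pderiv m F * (C (m i0.succ : ℂ) * X (m - Pi.single i0.succ 1 + Pi.single 0 1))) ≠ 0 := by
        intro h
        rw [h, add_zero] at h0
        exact hmain h0
      obtain ⟨m, hm, hmne⟩ := Finset.exists_ne_zero_of_sum_ne_zero hrest
      rw [coeff_term] at hmne
      split_ifs at hmne with hsupp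
      · have hmj : m i0.succ ≠ 0 := by
          intro h
          apply hmne
          rw [h]
          simp
        have hw : coeff (u - Finsupp.single (Pi.single i0.succ 1) 1 + Finsupp.single (Pi.single 0 1) 1
            - Finsupp.single (m - Pi.single i0.succ 1 + Pi.single 0 1) 1 + Finsupp.single m 1) F
            ≠ 0 := by
          intro h
          apply hmne
          rw [h]
          simp
        have hmne' : m ≠ Pi.single i0.succ 1 := (Finset.mem_erase.mp hm).1
        -- values of the new monomial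
        obtain ⟨w, hwdef⟩ : ∃ w : (Fin (k + 1) → ℕ) →₀ ℕ, w =
            u - Finsupp.single (Pi.single i0.succ 1) 1 + Finsupp.single (Pi.single 0 1) 1
            - Finsupp.single (m - Pi.single i0.succ 1 + Pi.single 0 1) 1 + Finsupp.single m 1 :=
          ⟨_, rfl⟩
        rw [← hwdef] at hw
        have hval : ∀ x : Fin (k + 1) → ℕ, x 0 = 0 → x ≠ m →
            w x = u x - (if x = Pi.single i0.succ 1 then 1 else 0) := by
          intro x hx0 hxm
          have e1 : x ≠ Pi.single 0 1 := by
            intro h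
            rw [h] at hx0
            simp at hx0
          have e2 : x ≠ m - Pi.single i0.succ 1 + Pi.single 0 1 := by
            intro h
            rw [h] at hx0
            simp at hx0
          rw [hwdef]
          simp only [Finsupp.coe_add, Finsupp.coe_tsub, Pi.add_apply, Pi.sub_apply,
            Finsupp.single_apply, if_neg (Ne.symm e1), if_neg (Ne.symm e2), if_neg (Ne.symm hxm)]
          by_cases hx : x = Pi.single i0.succ 1
          · simp [hx]
          · simp [hx, Ne.symm hx]
        have hm0 : (0 : Fin (k + 1) → ℕ) ≠ m := by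
          intro h
          apply hmj
          rw [← h]
          rfl
        have hsw : sfun w + 1 = sfun u := by
          unfold sfun
          rw [← Finset.add_sum_erase Finset.univ (fun i : Fin k => w (Pi.single i.succ 1))
              (Finset.mem_univ i0),
            ← Finset.add_sum_erase Finset.univ (fun i : Fin k => u (Pi.single i.succ 1))
              (Finset.mem_univ i0)]
          have h1 : w (Pi.single i0.succ 1) = u (Pi.single i0.succ 1) - 1 := by
            rw [hval _ (by simp) (Ne.symm hmne'), if_pos rfl]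
          have h2 : ∑ i ∈ Finset.univ.erase i0, w (Pi.single i.succ 1)
              = ∑ i ∈ Finset.univ.erase i0, u (Pi.single i.succ 1) := by
            apply Finset.sum_congr rfl
            intro i hi
            have hii : i ≠ i0 := (Finset.mem_erase.mp hi).1
            have hne : (Pi.single i.succ 1 : Fin (k + 1) → ℕ) ≠ Pi.single i0.succ 1 := by
              intro h
              have h3 := congrFun h i.succ
              rw [Pi.single_eq_same, Pi.single_apply] at h3
              split_ifs at h3 with h4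
              exact hii (Fin.succ_injective _ h4)
            have hnm : (Pi.single i.succ 1 : Fin (k + 1) → ℕ) ≠ m := by
              intro h
              apply hmj
              rw [← h, Pi.single_apply, if_neg]
              intro h4
              exact hii (Fin.succ_injective _ h4).symm
            rw [hval _ (by simp) hnm, if_neg hne, Nat.sub_zero]
          rw [h1, h2]
          have : 1 ≤ u (Pi.single i0.succ 1) := Nat.one_le_iff_ne_zero.mpr huj
          omega
        apply ih (s - 1) (by omega) w hw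
        · rw [hval 0 rfl hm0, hu0]
          exact Nat.zero_sub _
        · omega
      · exact absurd rfl hmne

theorem two_le_of_not_single {p : Fin (k + 1) → ℕ} (hp : p ≠ 0)
    (hs : ∀ j : Fin (k + 1), 0 < j → p ≠ Pi.single j 1) : 2 ≤ tsize p + p 0 := by
  classical
  by_contra hlt
  have h1 : tsize p ≠ 0 := fun h => hp (tsize_eq_zero.mp h)
  have h2 : tsize p = 1 := by omega
  have h3 : p 0 = 0 := by omega
  obtain ⟨j, _, hj⟩ := Finset.exists_ne_zero_of_sum_ne_zero (f := p) (s := Finset.univ) h1
  have hj0 : 0 < j := by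
    rw [Fin.pos_iff_ne_zero]
    intro h
    rw [h] at hj
    exact hj h3
  apply hs j hj0
  have h4 : p j + ∑ i ∈ Finset.univ.erase j, p i = 1 := by
    rw [Finset.add_sum_erase _ _ (Finset.mem_univ j)]
    exact h2
  have h5 : ∑ i ∈ Finset.univ.erase j, p i = 0 := by omega
  rw [Finset.sum_eq_zero_iff] at h5
  funext i
  by_cases hi : i = j
  · subst hi
    rw [Pi.single_eq_same]
    omega
  · rw [Pi.single_apply, if_neg hi]
    exact h5 i (Finset.mem_erase.mpr ⟨hi, Finset.mem_univ i⟩)

/-- degree count for a good monomial -/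
theorem two_mul_degree_le {d : ℕ} {nu : Fin (k + 1) → ℕ} {v : (Fin (k + 1) → ℕ) →₀ ℕ}
    (hd : v.degree = d) (hw : Finsupp.weight (fun p : Fin (k + 1) → ℕ => p) v = nu)
    (hv0 : v 0 = 0) (hvs : ∀ j : Fin (k + 1), 0 < j → v (Pi.single j 1) = 0) :
    2 * d ≤ tsize nu + nu 0 := by
  have h1 : tsize nu = ∑ p ∈ v.support, v p * tsize p := by
    unfold tsize
    rw [← hw]
    simp_rw [weight_coord, Finsupp.sum, Finset.mul_sum]
    exact Finset.sum_comm
  have h2 : nu 0 = ∑ p ∈ v.support, v p * p 0 := by
    rw [← hw, weight_coord, Finsupp.sum]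
  rw [← hd, Finsupp.degree_apply, h1, h2, ← Finset.sum_add_distrib, Finset.mul_sum]
  apply Finset.sum_le_sum
  intro p hp
  have hvp : v p ≠ 0 := Finsupp.mem_support_iff.mp hp
  have h3 : 2 ≤ tsize p + p 0 := by
    apply two_le_of_not_single
    · intro h
      rw [h] at hvp
      exact hvp hv0
    · intro j hj h
      rw [h] at hvp
      exact hvp (hvs j hj)
  nlinarith

theorem low_X0 (j : Fin k) : low k j (X 0) = 0 := by
  rw [low_X]
  simp

theorem raise_X0 (i j : Fin k) : raise k i j (X 0) = 0 := by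
  rw [raise_X]
  simp

theorem X0_mul_mem {c a : ℕ} {nu : Fin k → ℕ} {G : PolyRing k}
    (hG : G ∈ St k c a nu) : X 0 * G ∈ St k (c + 1) a nu := by
  classical
  rw [mem_St] at hG ⊢
  obtain ⟨hv, hh, hw, hl, hE⟩ := hG
  refine ⟨?_, ?_, ?_, ?_, ?_⟩
  · intro m hm
    have := vars_mul _ _ hm
    rw [Finset.mem_union, vars_X, Finset.mem_singleton] at this
    rcases this with rfl | h
    · rw [tsize_zero]
      exact Nat.zero_le _
    · exact hv m h
  · have h2 := (isHomogeneous_X ℂ (0 : Fin k → ℕ)).mul hh
    rw [Nat.add_comm 1 c] at h2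
    exact h2
  · have h2 := (isWeightedHomogeneous_X ℂ (fun m : Fin k → ℕ => m) 0).mul hw
    rw [zero_add] at h2
    exact h2
  · intro j
    rw [Derivation.leibniz, hl j, low_X0]
    simp
  · intro i j hij
    rw [Derivation.leibniz, hE i j hij, raise_X0]
    simp

/-- a polynomial all of whose monomials contain `Y_0` is divisible by `Y_0` -/
theorem exists_X0_mul_of_support {F : PolyRing k} (h : ∀ u, coeff u F ≠ 0 → u 0 ≠ 0) :
    ∃ G : PolyRing k, X 0 * G = F := by
  refine ⟨∑ u ∈ F.support, monomial (u - Finsupp.single 0 1) (coeff u F), ?_⟩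
  rw [Finset.mul_sum]
  conv_rhs => rw [← F.support_sum_monomial_coeff]
  apply Finset.sum_congr rfl
  intro u hu
  have h1 : Finsupp.single 0 1 ≤ u := by
    rw [Finsupp.single_le_iff]
    exact Nat.one_le_iff_ne_zero.mpr (h u (mem_support_iff.mp hu))
  rw [X, monomial_mul, one_mul, add_tsub_cancel_of_le h1]

theorem mem_St_of_X0_mul {c a : ℕ} {nu : Fin k → ℕ} {G : PolyRing k}
    (hF : X 0 * G ∈ St k (c + 1) a nu) : G ∈ St k c a nu := by
  classical
  rw [mem_St] at hF ⊢
  obtain ⟨hv, hh, hw, hl, hE⟩ := hF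
  have hc : ∀ u, coeff u G ≠ 0 → coeff (Finsupp.single 0 1 + u) (X 0 * G) ≠ 0 := by
    intro u hu
    rw [coeff_X_mul]
    exact hu
  refine ⟨?_, ?_, ?_, ?_, ?_⟩
  · intro p hp
    apply hv
    rw [mem_vars_iff_mem_support] at hp ⊢
    obtain ⟨u, hu, hpu⟩ := hp
    refine ⟨Finsupp.single 0 1 + u, mem_support_iff.mpr (hc u (mem_support_iff.mp hu)), ?_⟩
    rw [Finsupp.mem_support_iff] at hpu ⊢
    rw [Finsupp.add_apply]
    omega
  · intro u hu
    have h1 := hh (hc u hu)
    rw [map_add, Finsupp.weight_single] at h1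
    simp only [Pi.one_apply, smul_eq_mul, mul_one] at h1
    omega
  · intro u hu
    have h1 := hw (hc u hu)
    rw [map_add, Finsupp.weight_single] at h1
    simpa using h1
  · intro j
    have h1 := hl j
    rw [Derivation.leibniz, low_X0, smul_zero, add_zero, smul_eq_mul] at h1
    rcases mul_eq_zero.mp h1 with h | h
    · exact absurd h (X_ne_zero _)
    · exact h
  · intro i j hij
    have h1 := hE i j hij
    rw [Derivation.leibniz, raise_X0, smul_zero, add_zero, smul_eq_mul] at h1
    rcases mul_eq_zero.mp h1 with h | h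
    · exact absurd h (X_ne_zero _)
    · exact h

/-- If a polynomial killed by the raising operators `E_{0 j}` has a monomial without `Y_0`, then it
has such a monomial in which moreover no variable `Y_(e_j)`, `j > 0`, occurs. -/
theorem exists_good_monomial {F : PolyRing (k + 1)}
    (hE : ∀ j : Fin (k + 1), 0 < j → raise (k + 1) 0 j F = 0)
    {u : (Fin (k + 1) → ℕ) →₀ ℕ} (hu : coeff u F ≠ 0) (hu0 : u 0 = 0) :
    ∃ v : (Fin (k + 1) → ℕ) →₀ ℕ, coeff v F ≠ 0 ∧ v 0 = 0 ∧
      ∀ j : Fin (k + 1), 0 < j → v (Pi.single j 1) = 0 :=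
  good_aux hE (sfun u) u hu hu0 rfl

/-- divisibility by `Y_0` -/
theorem exists_X0_mul {c a : ℕ} {nu : Fin (k + 1) → ℕ} (h : tsize nu + nu 0 < 2 * (c + 1))
    {F : PolyRing (k + 1)} (hF : F ∈ St (k + 1) (c + 1) a nu) :
    ∃ G ∈ St (k + 1) c a nu, X 0 * G = F := by
  obtain ⟨_, hh, hw, _, hE⟩ := mem_St.mp hF
  have hsupp : ∀ u, coeff u F ≠ 0 → u 0 ≠ 0 := by
    intro u hu hu0
    obtain ⟨v, hv, hv0, hvs⟩ := exists_good_monomial (fun j hj => hE 0 j hj) hu hu0
    have hd : v.degree = c + 1 := by
      rw [Finsupp.degree_eq_weight_one]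
      exact hh hv
    have := two_mul_degree_le hd (hw hv) hv0 hvs
    omega
  obtain ⟨G, hG⟩ := exists_X0_mul_of_support hsupp
  refine ⟨G, ?_, hG⟩
  apply mem_St_of_X0_mul
  rw [hG]
  exact hF

theorem St_succ_le {c a : ℕ} {nu : Fin (k + 1) → ℕ} (h : tsize nu + nu 0 < 2 * (c + 1)) :
    Module.finrank ℂ (St (k + 1) (c + 1) a nu) ≤ Module.finrank ℂ (St (k + 1) c a nu) := by
  let f : St (k + 1) c a nu →ₗ[ℂ] St (k + 1) (c + 1) a nu :=
    (LinearMap.mulLeft ℂ (X 0 : PolyRing (k + 1))).restrict (fun G hG => X0_mul_mem hG)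
  apply LinearMap.finrank_le_finrank_of_surjective (f := f)
  intro F
  obtain ⟨G, hG, hGF⟩ := exists_X0_mul h F.2
  exact ⟨⟨G, hG⟩, Subtype.ext hGF⟩

theorem St_outer {c a : ℕ} {nu : Fin (k + 1) → ℕ} (h : tsize nu + nu 0 < 2 * (c + 1)) (j : ℕ) :
    Module.finrank ℂ (St (k + 1) (c + j) a nu) ≤ Module.finrank ℂ (St (k + 1) c a nu) := by
  induction j with
  | zero => exact le_rfl
  | succ j ih =>
    have h2 : tsize nu + nu 0 < 2 * (c + j + 1) := by omega
    exact (St_succ_le h2).trans ih

end Vale.Agent.Lib.P181
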