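import Vale.Agent.Lib.P181.Stable.StMain
import Vale.Agent.Lib.P181.Stable.Bridge
import Vale.Agent.Lib.P181.Stable.Outer

/-!
# P181: Foulkes' inequality for the weights with `lam_2 + lam_3 + ... ≤ b`
-/

namespace Vale.Agent.Lib.P181

open MvPolynomial

variable {k : ℕ}

theorem eq_cons_of_sum {N : ℕ} {lam : Fin (k + 1) → ℕ} (h : ∑ i, lam i = N) :
    lam = Fin.cons (N - tsize (tl lam)) (tl lam) := by
  rw [Fin.sum_univ_succ] at h
  funext i
  refine Fin.cases ?_ (fun j => ?_) i
  · rw [Fin.cons_zero]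
    unfold tsize tl
    omega
  · rw [Fin.cons_succ]
    rfl

/-- the core inequality -/
theorem stable_core (a b c : ℕ) (ha : 1 ≤ a) (lam : Fin (k + 1) → ℕ) (hc : tsize (tl lam) ≤ c) :
    mult (k + 1) a b lam ≤ mult (k + 1) c a (Fin.cons (c * a - tsize (tl lam)) (tl lam)) :=
  ((bridge1 a b lam).trans (St_finrank_le ha hc)).trans (bridge2 c a (tl lam))

/-- **Foulkes' inequality for all weights with `lam_2 + lam_3 + ... ≤ b`.** -/
theorem stable_foulkes (a b : ℕ) (ha : 1 ≤ a) (lam : Fin (k + 1) → ℕ)
    (h : ∑ i : Fin k, lam i.succ ≤ b) :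
    mult (k + 1) a b lam ≤ mult (k + 1) b a lam := by
  by_cases hz : mult (k + 1) a b lam = 0
  · rw [hz]
    exact Nat.zero_le _
  · have h1 := sum_eq_of_mult_ne_zero hz
    rw [Nat.mul_comm] at h1
    have h2 := stable_core a b b ha lam h
    rw [← eq_cons_of_sum h1] at h2
    exact h2

/-- the core inequality in the extended range -/
theorem stable_core_ext (a b c : ℕ) (ha : 1 ≤ a) (lam : Fin (k + 2) → ℕ)
    (hc : tsize (tl lam) + lam 1 < 2 * (c + 1)) :
    mult (k + 2) a b lam ≤ mult (k + 2) c a (Fin.cons (c * a - tsize (tl lam)) (tl lam)) := by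
  have h1 : Module.finrank ℂ (St (k + 1) a b (tl lam))
      ≤ Module.finrank ℂ (St (k + 1) (c + tsize (tl lam)) a (tl lam)) :=
    St_finrank_le ha (Nat.le_add_left _ _)
  have h2 : Module.finrank ℂ (St (k + 1) (c + tsize (tl lam)) a (tl lam))
      ≤ Module.finrank ℂ (St (k + 1) c a (tl lam)) := St_outer hc _
  exact (((bridge1 a b lam).trans h1).trans h2).trans (bridge2 c a (tl lam))

/-- **Foulkes' inequality for all weights with `lam_2 + (lam_2 + lam_3 + ...) ≤ 2 b + 1`.** -/
theorem stable_foulkes_ext (a b : ℕ) (ha : 1 ≤ a) (lam : Fin (k + 2) → ℕ)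
    (h : lam 1 + ∑ i : Fin (k + 1), lam i.succ ≤ 2 * b + 1) :
    mult (k + 2) a b lam ≤ mult (k + 2) b a lam := by
  by_cases hz : mult (k + 2) a b lam = 0
  · rw [hz]
    exact Nat.zero_le _
  · have h1 := sum_eq_of_mult_ne_zero hz
    rw [Nat.mul_comm] at h1
    have h3 : tsize (tl lam) + lam 1 < 2 * (b + 1) := by
      have : tsize (tl lam) = ∑ i : Fin (k + 1), lam i.succ := rfl
      omega
    have h2 := stable_core_ext a b b ha lam h3
    rw [← eq_cons_of_sum h1] at h2
    exact h2

/-- iterated monotonicity in the inner degree -/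
theorem mult_inner_le (c a j : ℕ) (lam : Fin (k + 2) → ℕ) :
    mult (k + 2) c a lam ≤ mult (k + 2) c (a + j) (lam + Pi.single 0 (c * j)) := by
  induction j with
  | zero =>
    have : lam + Pi.single 0 (c * 0) = lam := by
      funext i
      simp
    rw [this]
    exact le_rfl
  | succ j ih =>
    have h6 : (lam + Pi.single 0 (c * j) : Fin (k + 2) → ℕ) + Pi.single 0 c
          = lam + Pi.single 0 (c * (j + 1)) := by
      funext i
      simp only [Pi.add_apply, Pi.single_apply]
      by_cases hi : i = 0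
      · simp only [hi, if_true]
        rw [Nat.mul_succ]
        omega
      · simp [hi]
    generalize lam + Pi.single 0 (c * j) = l at ih h6
    rw [← h6]
    exact ih.trans (mult_shift_le c (a + j) l)

/-- **The generalised Foulkes inequality in the extended stable range.** -/
theorem stable_general_ext (a b c d : ℕ) (ha : 1 ≤ a) (had : a ≤ d) (h : a * b = c * d)
    (lam : Fin (k + 2) → ℕ) (hl : lam 1 + ∑ i : Fin (k + 1), lam i.succ ≤ 2 * c + 1) :
    mult (k + 2) a b lam ≤ mult (k + 2) c d lam := by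
  by_cases hz : mult (k + 2) a b lam = 0
  · rw [hz]
    exact Nat.zero_le _
  · have h1 := sum_eq_of_mult_ne_zero hz
    have h3 : tsize (tl lam) + lam 1 < 2 * (c + 1) := by
      have : tsize (tl lam) = ∑ i : Fin (k + 1), lam i.succ := rfl
      omega
    have h2 := stable_core_ext a b c ha lam h3
    have hz2 : mult (k + 2) c a (Fin.cons (c * a - tsize (tl lam)) (tl lam)) ≠ 0 := by
      intro h0
      rw [h0] at h2
      exact hz (Nat.le_zero.mp h2)
    have h4 := sum_eq_of_mult_ne_zero hz2
    rw [Fin.sum_univ_succ] at h4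
    simp only [Fin.cons_zero, Fin.cons_succ] at h4
    have h5 : ∑ i : Fin (k + 1), tl lam i = tsize (tl lam) := rfl
    rw [h5] at h4
    obtain ⟨j, rfl⟩ := Nat.exists_eq_add_of_le had
    have h6 := mult_inner_le c a j (Fin.cons (c * a - tsize (tl lam)) (tl lam))
    have h7 : (Fin.cons (c * a - tsize (tl lam)) (tl lam) : Fin (k + 2) → ℕ) + Pi.single 0 (c * j)
        = lam := by
      rw [h] at h1
      conv_rhs => rw [eq_cons_of_sum h1]
      funext i
      refine Fin.cases ?_ (fun i' => ?_) i
      · simp only [Pi.add_apply, Fin.cons_zero, Pi.single_eq_same]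
        rw [Nat.mul_add]
        omega
      · simp only [Pi.add_apply, Fin.cons_succ]
        rw [Pi.single_apply, if_neg (Fin.succ_ne_zero i'), add_zero]
    rw [h7] at h6
    exact h2.trans h6

end Vale.Agent.Lib.P181
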