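import Vale.Agent.Lib.P181.Stable.StDefs

/-!
# P181: homogenisation with respect to `Y_0`
-/

namespace Vale.Agent.Lib.P181

open MvPolynomial

variable {k : ℕ}

/-- homogenisation to degree `c` by powers of `Y_0` -/
noncomputable def homg (k c : ℕ) : PolyRing k →ₗ[ℂ] PolyRing k :=
  ∑ l ∈ Finset.range (c + 1),
    (LinearMap.mulLeft ℂ ((X 0 : PolyRing k) ^ (c - l))) ∘ₗ homogeneousComponent l

theorem homg_apply (c : ℕ) (F : PolyRing k) :
    homg k c F = ∑ l ∈ Finset.range (c + 1), (X 0 : PolyRing k) ^ (c - l) *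
      homogeneousComponent l F := by
  simp [homg, LinearMap.sum_apply]

theorem homg_isHomogeneous (c : ℕ) (F : PolyRing k) : (homg k c F).IsHomogeneous c := by
  rw [homg_apply]
  refine IsHomogeneous.sum _ _ _ fun l hl => ?_
  have hl' : l ≤ c := Nat.lt_succ_iff.1 (Finset.mem_range.1 hl)
  have h := (isHomogeneous_X_pow (R := ℂ) (0 : Fin k → ℕ) (c - l)).mul
    (homogeneousComponent_isHomogeneous l F)
  rwa [Nat.sub_add_cancel hl'] at h

theorem vars_homogeneousComponent (l : ℕ) (F : PolyRing k) :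
    (homogeneousComponent l F).vars ⊆ F.vars := by
  intro p hp
  rw [mem_vars_iff_mem_support] at hp ⊢
  obtain ⟨d, hd, hpd⟩ := hp
  refine ⟨d, ?_, hpd⟩
  rw [mem_support_iff] at hd ⊢
  intro h0
  apply hd
  rw [coeff_homogeneousComponent, h0]
  simp

theorem homg_vars (c : ℕ) (F : PolyRing k) : ∀ p ∈ (homg k c F).vars, p = 0 ∨ p ∈ F.vars := by
  classical
  intro p hp
  rw [homg_apply] at hp
  have h1 := vars_sum_subset (Finset.range (c + 1))
    (fun l => (X 0 : PolyRing k) ^ (c - l) * homogeneousComponent l F) hp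
  rw [Finset.mem_biUnion] at h1
  obtain ⟨l, -, hl⟩ := h1
  have h2 := vars_mul _ _ hl
  rcases Finset.mem_union.1 h2 with h3 | h3
  · left
    have h4 := vars_pow _ _ h3
    rw [vars_X] at h4
    exact Finset.mem_singleton.1 h4
  · right
    exact vars_homogeneousComponent l F h3

theorem weight_homogeneousComponent (l : ℕ) {F : PolyRing k} {nu : Fin k → ℕ}
    (h : IsWeightedHomogeneous (fun p : Fin k → ℕ => p) F nu) :
    IsWeightedHomogeneous (fun p : Fin k → ℕ => p) (homogeneousComponent l F) nu := by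
  intro d hd
  apply h
  intro h0
  apply hd
  rw [coeff_homogeneousComponent, h0]
  simp

theorem homg_weight (c : ℕ) {F : PolyRing k} {nu : Fin k → ℕ}
    (h : IsWeightedHomogeneous (fun p : Fin k → ℕ => p) F nu) :
    IsWeightedHomogeneous (fun p : Fin k → ℕ => p) (homg k c F) nu := by
  rw [homg_apply]
  refine IsWeightedHomogeneous.sum _ _ _ fun l _ => ?_
  have h1 : IsWeightedHomogeneous (fun p : Fin k → ℕ => p) (X 0 : PolyRing k) 0 :=
    isWeightedHomogeneous_X ℂ (fun p : Fin k → ℕ => p) 0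
  have h2 := (h1.pow (c - l)).mul (weight_homogeneousComponent l h)
  simpa using h2

/-- dehomogenisation: `Y_0 ↦ 1` -/
noncomputable def dehomg (k : ℕ) : PolyRing k →ₐ[ℂ] PolyRing k :=
  aeval fun p : Fin k → ℕ => if p = 0 then (1 : PolyRing k) else X p

theorem dehomg_eq_self {F : PolyRing k} (hF0 : ∀ p ∈ F.vars, p ≠ 0) : dehomg k F = F := by
  have := hom_congr_vars (f₁ := (dehomg k : PolyRing k →+* PolyRing k))
    (f₂ := RingHom.id (PolyRing k)) (p₁ := F) (p₂ := F) ?_ ?_ rfl
  · simpa using this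
  · ext z
    simp [dehomg]
  · intro p hp _
    simp [dehomg, hF0 p hp]

theorem sum_range_homogeneousComponent (c : ℕ) {F : PolyRing k} (hF : F.totalDegree ≤ c) :
    ∑ l ∈ Finset.range (c + 1), homogeneousComponent l F = F := by
  conv_rhs => rw [← sum_homogeneousComponent F]
  symm
  refine Finset.sum_subset ?_ ?_
  · intro l hl
    rw [Finset.mem_range] at hl ⊢
    omega
  · intro l _ hl
    rw [Finset.mem_range] at hl
    exact homogeneousComponent_eq_zero _ _ (by omega)

theorem dehomg_homg (c : ℕ) {F : PolyRing k} (hF : F.totalDegree ≤ c)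
    (hF0 : ∀ p ∈ F.vars, p ≠ 0) : dehomg k (homg k c F) = F := by
  rw [homg_apply, map_sum]
  have : ∀ l ∈ Finset.range (c + 1),
      dehomg k ((X 0 : PolyRing k) ^ (c - l) * homogeneousComponent l F)
        = dehomg k (homogeneousComponent l F) := by
    intro l _
    rw [map_mul, map_pow]
    simp [dehomg]
  rw [Finset.sum_congr rfl this, ← map_sum, sum_range_homogeneousComponent c hF,
    dehomg_eq_self hF0]

/-- `homg` is injective on polynomials of degree at most `c` not involving `Y_0` -/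
theorem homg_injOn (c : ℕ) {F G : PolyRing k} (hF : F.totalDegree ≤ c) (hG : G.totalDegree ≤ c)
    (hF0 : ∀ p ∈ F.vars, p ≠ 0) (hG0 : ∀ p ∈ G.vars, p ≠ 0) (h : homg k c F = homg k c G) :
    F = G := by
  rw [← dehomg_homg c hF hF0, ← dehomg_homg c hG hG0, h]

end Vale.Agent.Lib.P181
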