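import Vale.Agent.Lib.P181.Stable.SProps
import Vale.Agent.Lib.P181.Stab

/-!
# P181: commutation relations of `Zhom`
-/

namespace Vale.Agent.Lib.P181

open MvPolynomial

variable {k : ℕ}

theorem Zhom_X (a : ℕ) (p : Fin k → ℕ) : Zhom k a (X p) = Spoly k a p := by
  unfold Zhom
  rw [aeval_X]

theorem Zhom_C (a : ℕ) (c : ℂ) : Zhom k a (C c) = C c := by
  unfold Zhom
  rw [aeval_C]
  rfl

theorem der_C (D : Derivation ℂ (PolyRing k) (PolyRing k)) (c : ℂ) : D (C c) = 0 :=
  D.map_algebraMap c

theorem der_C_mul (D : Derivation ℂ (PolyRing k) (PolyRing k)) (c : ℂ) (F : PolyRing k) :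
    D (C c * F) = C c * D F := by
  rw [Derivation.leibniz, der_C, smul_zero, add_zero, smul_eq_mul]

theorem pderiv_Zhom {a : ℕ} {q : Fin k → ℕ} (hq : q ∈ Va k a) (F : PolyRing k) :
    pderiv q (Zhom k a F) = Zhom k a (Tq k q F) := by
  induction F using MvPolynomial.induction_on with
  | C c =>
    rw [Zhom_C, pderiv_C, der_C, map_zero]
  | add F G hF hG =>
    rw [map_add, map_add, map_add, map_add, hF, hG]
  | mul_X F p hF =>
    rw [map_mul, Derivation.leibniz, Derivation.leibniz, hF, Zhom_X, pderiv_Spoly hq, Tq_X,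
      smul_eq_mul, smul_eq_mul, smul_eq_mul, smul_eq_mul, map_add, map_mul, map_mul, map_mul,
      Zhom_X, Zhom_X, Zhom_C]

theorem Zhom_mem_supported (a : ℕ) (F : PolyRing k) :
    Zhom k a F ∈ supported ℂ (↑(Va k a) : Set (Fin k → ℕ)) := by
  induction F using MvPolynomial.induction_on with
  | C c =>
    rw [Zhom_C]
    exact Subalgebra.algebraMap_mem _ c
  | add F G hF hG =>
    rw [map_add]
    exact Subalgebra.add_mem _ hF hG
  | mul_X F p hF =>
    rw [map_mul, Zhom_X]
    refine Subalgebra.mul_mem _ hF ?_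
    rw [mem_supported]
    intro q hq
    exact vars_Spoly a p q hq

theorem vars_Zhom (a : ℕ) (F : PolyRing k) : ∀ q ∈ (Zhom k a F).vars, q ∈ Va k a := by
  intro q hq
  have h := Zhom_mem_supported a F
  rw [mem_supported] at h
  exact h hq

theorem Zhom_monomial_weight (a : ℕ) (d : (Fin k → ℕ) →₀ ℕ) (c : ℂ) :
    IsWeightedHomogeneous (fun q : Fin k → ℕ => q) (Zhom k a (monomial d c))
      (Finsupp.weight (fun q : Fin k → ℕ => q) d) := by
  unfold Zhom
  rw [aeval_monomial, Finsupp.weight_apply, Finsupp.prod, Finsupp.sum]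
  have h1 : IsWeightedHomogeneous (fun q : Fin k → ℕ => q)
      (∏ x ∈ d.support, Spoly k a x ^ d x) (∑ x ∈ d.support, d x • x) := by
    apply IsWeightedHomogeneous.prod
    intro x _
    exact (Spoly_weight a x).pow (d x)
  exact h1.C_mul c

theorem Zhom_weight (a : ℕ) {F : PolyRing k} {nu : Fin k → ℕ}
    (h : IsWeightedHomogeneous (fun q : Fin k → ℕ => q) F nu) :
    IsWeightedHomogeneous (fun q : Fin k → ℕ => q) (Zhom k a F) nu := by
  induction h using IsWeightedHomogeneous.induction_on with
  | zero =>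
    rw [map_zero]
    exact isWeightedHomogeneous_zero _ _ _
  | add p q hp hq h1 h2 =>
    rw [map_add]
    exact h1.add h2
  | monomial d r hr =>
    rw [← hr]
    exact Zhom_monomial_weight a d r

/-- commutation of pderiv with a raising operator, first case -/
theorem pderiv_raise_zero (i j : Fin k) (_hij : i ≠ j) (x : Fin k → ℕ) (hx : x i = 0)
    (G : PolyRing k) : pderiv x (raise k i j G) = raise k i j (pderiv x G) := by
  have key : ⁅(pderiv x : Derivation ℂ (PolyRing k) (PolyRing k)), raise k i j⁆ = 0 := by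
    apply derivation_ext
    intro p
    rw [Derivation.commutator_apply, raise_X, pderiv_C_mul, pderiv_X, pderiv_X]
    have h0 : raise k i j ((Pi.single x 1 : (Fin k → ℕ) → PolyRing k) p) = 0 := by
      rw [Pi.single_apply]
      split_ifs
      · exact Derivation.map_one_eq_zero _
      · exact map_zero _
    have h1 : ¬ (p - Pi.single j 1 + Pi.single i 1 = x) := by
      intro h
      have h2 := congrFun h i
      simp only [Pi.add_apply, Pi.sub_apply, Pi.single_apply, if_true] at h2
      omega
    rw [h0, sub_zero, Pi.single_apply, if_neg h1, mul_zero]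
    rfl
  have h2 := congrArg (fun D : Derivation ℂ (PolyRing k) (PolyRing k) => D G) key
  simp only [Derivation.commutator_apply] at h2
  exact sub_eq_zero.mp h2

theorem move_back (i j : Fin k) (hij : i ≠ j) (x : Fin k → ℕ) (hx : 0 < x i) :
    (x - Pi.single i 1 + Pi.single j 1 : Fin k → ℕ) - Pi.single j 1 + Pi.single i 1 = x := by
  funext l
  simp only [Pi.add_apply, Pi.sub_apply, Pi.single_apply]
  by_cases h1 : l = i
  · subst h1
    simp only [if_true, if_neg hij]
    omega
  · by_cases h2 : l = j
    · subst h2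
      simp only [if_true, if_neg h1]
      omega
    · simp only [if_neg h1, if_neg h2]
      omega

theorem move_apply_j (i j : Fin k) (hij : i ≠ j) (x : Fin k → ℕ) :
    (x - Pi.single i 1 + Pi.single j 1 : Fin k → ℕ) j = x j + 1 := by
  simp only [Pi.add_apply, Pi.sub_apply, Pi.single_apply, if_true, if_neg hij.symm]
  omega

/-- commutation of pderiv with a raising operator, second case -/
theorem pderiv_raise_pos (i j : Fin k) (hij : i ≠ j) (x : Fin k → ℕ) (hx : 0 < x i)
    (G : PolyRing k) :
    pderiv x (raise k i j G) = raise k i j (pderiv x G)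
      + C ((x j + 1 : ℕ) : ℂ) * pderiv (x - Pi.single i 1 + Pi.single j 1) G := by
  have h := pderiv_raise i j (x - Pi.single i 1 + Pi.single j 1)
    (by rw [move_apply_j i j hij]; omega) G
  rw [move_back i j hij x hx, move_apply_j i j hij] at h
  exact h

theorem zc_tsize_move (i j : Fin k) (x : Fin k → ℕ) (hx : 0 < x i) :
    tsize (x - Pi.single i 1 + Pi.single j 1) = tsize x := by
  have h1 : (Pi.single i 1 : Fin k → ℕ) ≤ x := by
    intro l
    rw [Pi.single_apply]
    split_ifs with h
    · subst h
      exact hx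
    · exact Nat.zero_le _
  have h2 := tsize_sub h1
  rw [tsize_add, tsize_single]
  rw [tsize_single] at h2
  exact h2

theorem bin_split (i j : Fin k) (hij : i ≠ j) (p q : Fin k → ℕ) :
    bin p q = (p i).choose (q i) * ((p j).choose (q j) *
      ∏ l ∈ (Finset.univ.erase i).erase j, (p l).choose (q l)) := by
  unfold bin
  rw [← Finset.mul_prod_erase Finset.univ _ (Finset.mem_univ i),
    ← Finset.mul_prod_erase (Finset.univ.erase i) _
      (Finset.mem_erase.mpr ⟨hij.symm, Finset.mem_univ j⟩)]

theorem rest_congr (i j : Fin k) (p q p' q' : Fin k → ℕ)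
    (hp : ∀ l, l ≠ i → l ≠ j → p' l = p l) (hq : ∀ l, l ≠ i → l ≠ j → q' l = q l) :
    ∏ l ∈ (Finset.univ.erase i).erase j, (p' l).choose (q' l)
      = ∏ l ∈ (Finset.univ.erase i).erase j, (p l).choose (q l) := by
  apply Finset.prod_congr rfl
  intro l hl
  rw [Finset.mem_erase, Finset.mem_erase] at hl
  rw [hp l hl.2.1 hl.1, hq l hl.2.1 hl.1]

theorem choose_A (n m : ℕ) : n.choose m * (n - m) = n * (n - 1).choose m := by
  cases n with
  | zero => simp
  | succ n =>
    have h := Nat.choose_mul_succ_eq n m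
    simp only [Nat.add_sub_cancel]
    rw [← h]
    ring

theorem choose_B (n m : ℕ) : (m + 1) * n.choose (m + 1) = n * (n - 1).choose m := by
  cases n with
  | zero => simp
  | succ n =>
    have h := Nat.add_one_mul_choose_eq n m
    simp only [Nat.add_sub_cancel]
    rw [h]
    ring

theorem up_apply_i (i j : Fin k) (hij : i ≠ j) (p : Fin k → ℕ) :
    (p - Pi.single j 1 + Pi.single i 1 : Fin k → ℕ) i = p i + 1 := by
  simp only [Pi.add_apply, Pi.sub_apply, Pi.single_apply, if_true, if_neg hij]
  omega

theorem up_apply_j (i j : Fin k) (hij : i ≠ j) (p : Fin k → ℕ) :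
    (p - Pi.single j 1 + Pi.single i 1 : Fin k → ℕ) j = p j - 1 := by
  simp only [Pi.add_apply, Pi.sub_apply, Pi.single_apply, if_true, if_neg hij.symm]
  omega

theorem up_apply_other (i j : Fin k) (p : Fin k → ℕ) (l : Fin k) (h1 : l ≠ i) (h2 : l ≠ j) :
    (p - Pi.single j 1 + Pi.single i 1 : Fin k → ℕ) l = p l := by
  simp only [Pi.add_apply, Pi.sub_apply, Pi.single_apply, if_neg h1, if_neg h2]
  omega

theorem bin_pascal_zero (i j : Fin k) (hij : i ≠ j) (p q : Fin k → ℕ) (hq : q i = 0) :
    bin p q * (p j - q j) = p j * bin (p - Pi.single j 1 + Pi.single i 1) q := by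
  rw [bin_split i j hij p q, bin_split i j hij (p - Pi.single j 1 + Pi.single i 1) q,
    rest_congr i j p q (p - Pi.single j 1 + Pi.single i 1) q
      (fun l h1 h2 => up_apply_other i j p l h1 h2) (fun _ _ _ => rfl),
    up_apply_i i j hij, up_apply_j i j hij, hq, Nat.choose_zero_right, Nat.choose_zero_right]
  generalize ∏ l ∈ (Finset.univ.erase i).erase j, (p l).choose (q l) = R
  have hA := choose_A (p j) (q j)
  calc 1 * ((p j).choose (q j) * R) * (p j - q j) = R * ((p j).choose (q j) * (p j - q j)) := by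
        ring
    _ = p j * (1 * ((p j - 1).choose (q j) * R)) := by
        rw [hA]
        ring

theorem bin_pascal_pos (i j : Fin k) (hij : i ≠ j) (p q : Fin k → ℕ) (hq : 0 < q i) :
    bin p q * (p j - q j) + (q j + 1) * bin p (q - Pi.single i 1 + Pi.single j 1)
      = p j * bin (p - Pi.single j 1 + Pi.single i 1) q := by
  rw [bin_split i j hij p q, bin_split i j hij (p - Pi.single j 1 + Pi.single i 1) q,
    bin_split i j hij p (q - Pi.single i 1 + Pi.single j 1),
    rest_congr i j p q (p - Pi.single j 1 + Pi.single i 1) q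
      (fun l h1 h2 => up_apply_other i j p l h1 h2) (fun _ _ _ => rfl),
    rest_congr i j p q p (q - Pi.single i 1 + Pi.single j 1)
      (fun _ _ _ => rfl) (fun l h1 h2 => up_apply_other j i q l h2 h1),
    up_apply_i i j hij, up_apply_j i j hij, up_apply_i j i hij.symm, up_apply_j j i hij.symm]
  generalize ∏ l ∈ (Finset.univ.erase i).erase j, (p l).choose (q l) = R
  obtain ⟨s, hs⟩ : ∃ s, q i = s + 1 := ⟨q i - 1, by omega⟩
  rw [hs, Nat.add_sub_cancel]
  have hA := choose_A (p j) (q j)
  have hB := choose_B (p j) (q j)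
  calc (p i).choose (s + 1) * ((p j).choose (q j) * R) * (p j - q j)
        + (q j + 1) * ((p i).choose s * ((p j).choose (q j + 1) * R))
      = (p i).choose (s + 1) * R * ((p j).choose (q j) * (p j - q j))
        + (p i).choose s * R * ((q j + 1) * (p j).choose (q j + 1)) := by ring
    _ = p j * ((p i + 1).choose (s + 1) * ((p j - 1).choose (q j) * R)) := by
        rw [hA, hB, Nat.choose_succ_succ]
        ring

theorem eq_zero_of_pderiv (G : PolyRing k) (h : ∀ x, pderiv x G = 0)
    (h0 : constantCoeff G = 0) : G = 0 := by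
  have h1 : G.vars = ∅ := by
    rw [Finset.eq_empty_iff_forall_notMem]
    intro x
    exact notMem_vars_of_pderiv_eq_zero (h x)
  rw [vars_eq_empty_iff_eq_C] at h1
  rw [h1]
  rw [constantCoeff_eq] at h0
  rw [h0, C_0]

theorem constantCoeff_raise (i j : Fin k) (H : PolyRing k) :
    constantCoeff (raise k i j H) = 0 := by
  induction H using MvPolynomial.induction_on with
  | C c => rw [der_C, map_zero]
  | add F G hF hG => rw [map_add, map_add, hF, hG, add_zero]
  | mul_X F p hF =>
    rw [Derivation.leibniz, raise_X, smul_eq_mul, smul_eq_mul, map_add, map_mul, map_mul, map_mul,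
      hF, constantCoeff_X, constantCoeff_X]
    ring

theorem sub_up_eq (i j : Fin k) (hij : i ≠ j) (p x : Fin k → ℕ) (hx : x i ≤ p i) :
    p - x - Pi.single j 1 + Pi.single i 1 = p - Pi.single j 1 + Pi.single i 1 - x := by
  funext l
  simp only [Pi.add_apply, Pi.sub_apply, Pi.single_apply]
  by_cases h1 : l = i
  · subst h1
    simp only [if_true, if_neg hij]
    omega
  · by_cases h2 : l = j
    · subst h2
      simp only [if_true, if_neg h1]
      omega
    · simp only [if_neg h1, if_neg h2]
      omega

theorem sub_move_eq (i j : Fin k) (hij : i ≠ j) (p x : Fin k → ℕ) (hx : 0 < x i) :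
    p - (x - Pi.single i 1 + Pi.single j 1) = p - Pi.single j 1 + Pi.single i 1 - x := by
  funext l
  simp only [Pi.add_apply, Pi.sub_apply, Pi.single_apply]
  by_cases h1 : l = i
  · subst h1
    simp only [if_true, if_neg hij]
    omega
  · by_cases h2 : l = j
    · subst h2
      simp only [if_true, if_neg h1]
      omega
    · simp only [if_neg h1, if_neg h2]
      omega

/-- the inductive step: the term coming from the induction hypothesis -/
theorem raise_step (a : ℕ) (i j : Fin k) (hij : i ≠ j) (p x : Fin k → ℕ) (hx : x ∈ Va k a)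
    (IH : ∀ r : Fin k → ℕ, tsize r < tsize p →
      raise k i j (Spoly k a r) = C (r j : ℂ) * Spoly k a (r - Pi.single j 1 + Pi.single i 1)) :
    C (bin p x : ℂ) * raise k i j (Spoly k a (p - x))
      = C ((bin p x * (p j - x j) : ℕ) : ℂ) *
        Spoly k a (p - Pi.single j 1 + Pi.single i 1 - x) := by
  by_cases hb : bin p x = 0
  · rw [hb]
    simp
  · have hle := le_of_bin_ne_zero hb
    have h1 := tsize_sub hle
    have h2 := (mem_Va.mp hx).1
    rw [IH (p - x) (by omega), sub_up_eq i j hij p x (hle i), Pi.sub_apply, ← mul_assoc, ← C_mul,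
      Nat.cast_mul]

theorem pderiv_Spoly_notMem {a : ℕ} {x : Fin k → ℕ} (hx : x ∉ Va k a) (p : Fin k → ℕ) :
    pderiv x (Spoly k a p) = 0 :=
  pderiv_eq_zero_of_notMem_vars fun h => hx (vars_Spoly a p x h)

theorem pderiv_raise_Spoly (a : ℕ) (i j : Fin k) (hij : i ≠ j) (p x : Fin k → ℕ)
    (IH : ∀ r : Fin k → ℕ, tsize r < tsize p →
      raise k i j (Spoly k a r) = C (r j : ℂ) * Spoly k a (r - Pi.single j 1 + Pi.single i 1)) :
    pderiv x (raise k i j (Spoly k a p))
      = pderiv x (C (p j : ℂ) * Spoly k a (p - Pi.single j 1 + Pi.single i 1)) := by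
  rw [pderiv_C_mul]
  by_cases hx : x ∈ Va k a
  · rw [pderiv_Spoly hx]
    by_cases hxi : x i = 0
    · rw [pderiv_raise_zero i j hij x hxi, pderiv_Spoly hx, der_C_mul,
        raise_step a i j hij p x hx IH, bin_pascal_zero i j hij p x hxi, ← mul_assoc, ← C_mul,
        Nat.cast_mul]
    · have hpos : 0 < x i := Nat.pos_of_ne_zero hxi
      have hx' : x - Pi.single i 1 + Pi.single j 1 ∈ Va k a := by
        rw [mem_Va, zc_tsize_move i j x hpos]
        exact mem_Va.mp hx
      rw [pderiv_raise_pos i j hij x hpos, pderiv_Spoly hx, pderiv_Spoly hx', der_C_mul,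
        raise_step a i j hij p x hx IH, sub_move_eq i j hij p x hpos, ← mul_assoc, ← mul_assoc,
        ← C_mul, ← C_mul, ← add_mul, ← C_add, ← Nat.cast_mul, ← Nat.cast_mul, ← Nat.cast_add,
        bin_pascal_pos i j hij p x hpos]
  · rw [pderiv_Spoly_notMem hx, mul_zero]
    by_cases hxi : x i = 0
    · rw [pderiv_raise_zero i j hij x hxi, pderiv_Spoly_notMem hx, map_zero]
    · have hpos : 0 < x i := Nat.pos_of_ne_zero hxi
      have hx' : x - Pi.single i 1 + Pi.single j 1 ∉ Va k a := by
        rw [mem_Va, zc_tsize_move i j x hpos]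
        exact fun h => hx (mem_Va.mpr h)
      rw [pderiv_raise_pos i j hij x hpos, pderiv_Spoly_notMem hx, pderiv_Spoly_notMem hx',
        map_zero, mul_zero, add_zero]

theorem raise_Spoly_aux (a : ℕ) (i j : Fin k) (hij : i ≠ j) (N : ℕ) :
    ∀ p : Fin k → ℕ, tsize p = N →
      raise k i j (Spoly k a p) = C (p j : ℂ) * Spoly k a (p - Pi.single j 1 + Pi.single i 1) := by
  induction N using Nat.strong_induction_on with
  | _ N ih =>
    intro p hp
    have IH : ∀ r : Fin k → ℕ, tsize r < tsize p →
        raise k i j (Spoly k a r)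
          = C (r j : ℂ) * Spoly k a (r - Pi.single j 1 + Pi.single i 1) := by
      intro r hr
      exact ih (tsize r) (by omega) r rfl
    rw [← sub_eq_zero]
    apply eq_zero_of_pderiv
    · intro x
      rw [map_sub, pderiv_raise_Spoly a i j hij p x IH, sub_self]
    · have hne : p - Pi.single j 1 + Pi.single i 1 ≠ 0 := by
        intro h
        have h2 := congrFun h i
        rw [up_apply_i i j hij] at h2
        simp at h2
      rw [map_sub, constantCoeff_raise, map_mul, constantCoeff_Spoly a _ hne, mul_zero, sub_zero]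

theorem raise_Spoly (a : ℕ) (i j : Fin k) (hij : i ≠ j) (p : Fin k → ℕ) :
    raise k i j (Spoly k a p) = C (p j : ℂ) * Spoly k a (p - Pi.single j 1 + Pi.single i 1) :=
  raise_Spoly_aux a i j hij (tsize p) p rfl

theorem raise_Zhom (a : ℕ) (i j : Fin k) (hij : i ≠ j) (F : PolyRing k) :
    raise k i j (Zhom k a F) = Zhom k a (raise k i j F) := by
  induction F using MvPolynomial.induction_on with
  | C c =>
    rw [Zhom_C, der_C, map_zero]
  | add F G hF hG =>
    rw [map_add, map_add, map_add, map_add, hF, hG]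
  | mul_X F p hF =>
    rw [map_mul, Derivation.leibniz, Derivation.leibniz, hF, Zhom_X, raise_Spoly a i j hij,
      raise_X, smul_eq_mul, smul_eq_mul, smul_eq_mul, smul_eq_mul, map_add, map_mul, map_mul,
      map_mul, Zhom_X, Zhom_X, Zhom_C]

end Vale.Agent.Lib.P181
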