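import Vale.Agent.Lib.P181.Stab
import Vale.Agent.Lib.P181.Stable.Euler
import Vale.Agent.Lib.P181.Stable.ZComm
import Vale.Agent.Lib.P181.Stable.Ell

/-!
# P181: injectivity of `Zhom`
-/

namespace Vale.Agent.Lib.P181

open MvPolynomial

variable {k : ℕ}

theorem bin_self (p : Fin k → ℕ) : bin p p = 1 := by
  unfold bin
  simp

/-- **Easy J-lemma.** -/
theorem J_easy {a : ℕ} {F : PolyRing k} (hv : ∀ p ∈ F.vars, tsize p ≤ a)
    (hT : ∀ q ∈ Va k a, Tq k q F = 0) : ∀ p ∈ F.vars, p = 0 := by
  classical
  intro p0 hp0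
  obtain ⟨p, hp, hmax⟩ := Finset.exists_max_image F.vars tsize ⟨p0, hp0⟩
  by_cases hz : tsize p = 0
  · have := hmax p0 hp0
    exact tsize_eq_zero.mp (by omega)
  · exfalso
    have hpV : p ∈ Va k a := mem_Va.mpr ⟨by omega, hv p hp⟩
    have h1 : Tq k p F = ((X 0 : PolyRing k) • (pderiv p : Derivation ℂ (PolyRing k) (PolyRing k))) F := by
      apply derivation_eqOn_supported (s := (↑F.vars : Set (Fin k → ℕ)))
      · intro p' hp'
        simp only [Function.comp_apply, Derivation.smul_apply, smul_eq_mul]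
        rw [Tq_X, pderiv_X]
        by_cases hpp : p' = p
        · subst hpp
          simp [bin_self]
        · have hb : bin p' p = 0 := by
            by_contra hb
            have hle := le_of_bin_ne_zero hb
            have h2 := tsize_sub hle
            have h3 := hmax p' hp'
            have h4 : tsize (p' - p) = 0 := by omega
            rw [tsize_eq_zero] at h4
            apply hpp
            have h5 := tsub_add_cancel_of_le hle
            rw [h4, zero_add] at h5
            exact h5.symm
          rw [hb, Pi.single_apply, if_neg hpp]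
          simp
      · exact mem_supported.mpr (subset_refl _)
    rw [hT p hpV] at h1
    simp only [Derivation.smul_apply, smul_eq_mul] at h1
    have h2 : pderiv p F = 0 := by
      rcases mul_eq_zero.mp h1.symm with h | h
      · exact absurd h (X_ne_zero _)
      · exact h
    exact notMem_vars_of_pderiv_eq_zero h2 hp

/-- a homogeneous polynomial in `Y_0` alone which is killed by `Zhom` vanishes -/
theorem eq_zero_of_vars_zero {a d : ℕ} {F : PolyRing k} (hF : F.IsHomogeneous d)
    (hv : ∀ p ∈ F.vars, p = 0) (hZ : Zhom k a F = 0) : F = 0 := by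
  classical
  have hsupp : ∀ u, coeff u F ≠ 0 → u = Finsupp.single 0 d := by
    intro u hu
    have hdeg : u.degree = d := by
      rw [Finsupp.degree_eq_weight_one]
      exact hF hu
    have h0 : ∀ p, p ≠ 0 → u p = 0 := by
      intro p hp
      by_contra hup
      apply hp
      apply hv
      rw [mem_vars_iff_mem_support]
      exact ⟨u, mem_support_iff.mpr hu, Finsupp.mem_support_iff.mpr hup⟩
    have h1 : u = Finsupp.single 0 (u 0) := by
      ext p
      by_cases hp : p = 0
      · subst hp
        simp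
      · rw [h0 p hp, Finsupp.single_apply, if_neg (Ne.symm hp)]
    rw [h1, Finsupp.degree_single] at hdeg
    rw [h1, hdeg]
  have hmono : F = monomial (Finsupp.single 0 d) (coeff (Finsupp.single 0 d) F) := by
    ext u
    rw [coeff_monomial]
    split_ifs with h
    · rw [h]
    · by_contra hu
      exact h (hsupp u hu).symm
  rw [hmono] at hZ
  unfold Zhom at hZ
  rw [aeval_monomial, Finsupp.prod_single_index (by simp), Spoly_zero, one_pow, mul_one] at hZ
  have h2 : coeff (Finsupp.single 0 d) F = 0 := by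
    have : (C (coeff (Finsupp.single 0 d) F) : PolyRing k) = 0 := hZ
    exact C_eq_zero.mp this
  rw [hmono, h2, monomial_zero]

theorem Zhom_inj_gen {a : ℕ} (P : PolyRing k → Prop)
    (hT : ∀ F, P F → ∀ q ∈ Va k a, P (Tq k q F))
    (hJ : ∀ F, P F → (∀ q ∈ Va k a, Tq k q F = 0) → ∀ p ∈ F.vars, p = 0)
    (hH : ∀ F, P F → ∃ d, F.IsHomogeneous d) :
    ∀ (N : ℕ) (F : PolyRing k), P F → IsWeightedHomogeneous tsize F N → Zhom k a F = 0 → F = 0 := by
  intro N
  induction N using Nat.strong_induction_on with
  | _ N ih =>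
    intro F hP hw hZ
    have hv : ∀ p ∈ F.vars, p = 0 := by
      by_cases hN : N = 0
      · intro p hp
        have := tsize_le_of_mem_vars hw hp
        exact tsize_eq_zero.mp (by omega)
      · apply hJ F hP
        intro q hq
        have hq1 := (mem_Va.mp hq).1
        apply ih (N - tsize q) (by omega) (Tq k q F) (hT F hP q hq) (Tq_tsize q hw)
        rw [← pderiv_Zhom hq, hZ, map_zero]
    obtain ⟨d, hd⟩ := hH F hP
    exact eq_zero_of_vars_zero hd hv hZ

theorem Zhom_inj_deg {a : ℕ} : ∀ (N : ℕ) (F : PolyRing k), F.IsHomogeneous a →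
    IsWeightedHomogeneous tsize F N → Zhom k a F = 0 → F = 0 :=
  Zhom_inj_gen (fun F => F.IsHomogeneous a) (fun _ hF q _ => Tq_isHomogeneous q hF)
    (fun _ hF hT => J_hard hF hT) (fun _ hF => ⟨a, hF⟩)

theorem Zhom_inj_small {a c : ℕ} : ∀ (N : ℕ) (F : PolyRing k), F.IsHomogeneous c →
    (∀ p ∈ F.vars, tsize p ≤ a) →
    IsWeightedHomogeneous tsize F N → Zhom k a F = 0 → F = 0 := by
  intro N F h1 h2
  exact Zhom_inj_gen (fun F => F.IsHomogeneous c ∧ ∀ p ∈ F.vars, tsize p ≤ a)
    (fun _ hF q _ => ⟨Tq_isHomogeneous q hF.1, Tq_vars q hF.2⟩)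
    (fun _ hF hT => J_easy hF.2 hT) (fun _ hF => ⟨c, hF.1⟩) N F ⟨h1, h2⟩

end Vale.Agent.Lib.P181
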