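import Vale.Agent.Lib.P181.Stable.Final

/-!
# P181: the two stable limits and the inequality between them
-/

namespace Vale.Agent.Lib.P181

open MvPolynomial

variable {k : ℕ}

theorem cons_one (x : ℕ) (nu : Fin (k + 1) → ℕ) : (Fin.cons x nu : Fin (k + 2) → ℕ) 1 = nu 0 := by
  have h : (1 : Fin (k + 2)) = Fin.succ 0 := rfl
  rw [h, Fin.cons_succ]

theorem tl_cons (x : ℕ) (nu : Fin k → ℕ) : tl (Fin.cons x nu : Fin (k + 1) → ℕ) = nu := by
  funext i
  unfold tl
  rw [Fin.cons_succ]

theorem cons_add_single (x y : ℕ) (nu : Fin (k + 1) → ℕ) :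
    (Fin.cons x nu : Fin (k + 2) → ℕ) + Pi.single 0 y = Fin.cons (x + y) nu := by
  funext i
  refine Fin.cases ?_ (fun j => ?_) i
  · simp only [Pi.add_apply, Fin.cons_zero, Pi.single_eq_same]
  · simp only [Pi.add_apply, Fin.cons_succ]
    rw [Pi.single_apply, if_neg (Fin.succ_ne_zero j), add_zero]

theorem mult_cons_eq_zero {a b x : ℕ} {nu : Fin k → ℕ} (h : x + tsize nu ≠ a * b) :
    mult (k + 1) a b (Fin.cons x nu) = 0 := by
  by_contra hz
  have h1 := sum_eq_of_mult_ne_zero hz
  rw [Fin.sum_univ_succ] at h1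
  simp only [Fin.cons_zero, Fin.cons_succ] at h1
  exact h h1

/-- one step of the stability in the inner degree -/
theorem inner_step (a b : ℕ) (ha : 1 ≤ a) (nu : Fin (k + 1) → ℕ) (h : nu 0 ≤ b) :
    mult (k + 2) a (b + 1) (Fin.cons (a * (b + 1) - tsize nu) nu)
      = mult (k + 2) a b (Fin.cons (a * b - tsize nu) nu) := by
  by_cases hS : tsize nu ≤ a * b
  · have h1 := mult_shift_eq a b (Fin.cons (a * b - tsize nu) nu)
      (by rw [cons_one]; exact h)
    rw [cons_add_single] at h1
    have h2 : a * b - tsize nu + a = a * (b + 1) - tsize nu := by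
      rw [Nat.mul_succ]
      omega
    rw [h2] at h1
    exact h1
  · have h1 : mult (k + 2) a b (Fin.cons (a * b - tsize nu) nu) = 0 := by
      apply mult_cons_eq_zero
      omega
    rw [h1]
    apply mult_eq_zero_of_lt
    · rw [cons_one]
      exact h
    · rw [Fin.cons_zero, Nat.mul_succ]
      omega

/-- stability in the inner degree -/
theorem inner_stable (a b b' : ℕ) (ha : 1 ≤ a) (nu : Fin (k + 1) → ℕ) (h : nu 0 ≤ b)
    (hb : b ≤ b') :
    mult (k + 2) a b' (Fin.cons (a * b' - tsize nu) nu)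
      = mult (k + 2) a b (Fin.cons (a * b - tsize nu) nu) := by
  induction b', hb using Nat.le_induction with
  | base => rfl
  | succ m hm ih => rw [inner_step a m ha nu (h.trans hm), ih]

/-- one step of the monotonicity in the outer degree -/
theorem outer_step_le (c a : ℕ) (nu : Fin (k + 1) → ℕ) :
    mult (k + 2) c a (Fin.cons (c * a - tsize nu) nu)
      ≤ mult (k + 2) (c + 1) a (Fin.cons ((c + 1) * a - tsize nu) nu) := by
  by_cases hS : tsize nu ≤ c * a
  · have h1 := mult_mulX_le c a (Fin.cons (c * a - tsize nu) nu)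
    rw [cons_add_single] at h1
    have h2 : c * a - tsize nu + a = (c + 1) * a - tsize nu := by
      rw [Nat.succ_mul]
      omega
    rw [h2] at h1
    exact h1
  · have h1 : mult (k + 2) c a (Fin.cons (c * a - tsize nu) nu) = 0 := by
      apply mult_cons_eq_zero
      omega
    rw [h1]
    exact Nat.zero_le _

theorem outer_le (c c' a : ℕ) (nu : Fin (k + 1) → ℕ) (hc : c ≤ c') :
    mult (k + 2) c a (Fin.cons (c * a - tsize nu) nu)
      ≤ mult (k + 2) c' a (Fin.cons (c' * a - tsize nu) nu) := by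
  induction c', hc using Nat.le_induction with
  | base => exact le_rfl
  | succ m _ ih => exact ih.trans (outer_step_le m a nu)

/-- stability in the outer degree -/
theorem outer_stable (c c' a : ℕ) (nu : Fin (k + 1) → ℕ) (h : nu 0 + tsize nu ≤ 2 * c + 1)
    (hc : c ≤ c') :
    mult (k + 2) c' a (Fin.cons (c' * a - tsize nu) nu)
      = mult (k + 2) c a (Fin.cons (c * a - tsize nu) nu) := by
  apply le_antisymm _ (outer_le c c' a nu hc)
  obtain ⟨j, rfl⟩ := Nat.exists_eq_add_of_le hc
  have h1 := bridge1 (c + j) a (Fin.cons ((c + j) * a - tsize nu) nu : Fin (k + 2) → ℕ)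
  rw [tl_cons] at h1
  have h2 : Module.finrank ℂ (St (k + 1) (c + j) a nu) ≤ Module.finrank ℂ (St (k + 1) c a nu) :=
    St_outer (by omega) j
  exact (h1.trans h2).trans (bridge2 c a nu)

/-- every plethysm coefficient of `Sym^a (Sym^b)` is bounded by the stable one of
`Sym^c (Sym^a)` -/
theorem stable_limit_le (a b c : ℕ) (ha : 1 ≤ a) (nu : Fin (k + 1) → ℕ)
    (h : nu 0 + tsize nu ≤ 2 * c + 1) :
    mult (k + 2) a b (Fin.cons (a * b - tsize nu) nu)
      ≤ mult (k + 2) c a (Fin.cons (c * a - tsize nu) nu) := by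
  have h1 := stable_core_ext a b c ha (Fin.cons (a * b - tsize nu) nu : Fin (k + 2) → ℕ)
    (by rw [tl_cons, cons_one]; omega)
  rw [tl_cons] at h1
  exact h1

end Vale.Agent.Lib.P181
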