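import Vale.Agent.Lib.P181.Stable.StDefs

/-!
# P181: properties of the polynomials `Spoly k a p`
-/

namespace Vale.Agent.Lib.P181

open MvPolynomial

variable {k : ℕ}

theorem Sseq_zero_arg (k a N : ℕ) : Sseq k a N 0 = 1 := by
  cases N with
  | zero => simp [Sseq]
  | succ N => simp [Sseq]

theorem Sseq_succ (a N : ℕ) (p : Fin k → ℕ) (hp : p ≠ 0) :
    Sseq k a (N + 1) p = C ((tsize p : ℂ)⁻¹) *
        ∑ q ∈ Va k a, C ((tsize q * bin p q : ℕ) : ℂ) * X q * Sseq k a N (p - q) := by
  rw [Sseq, if_neg hp]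

theorem tsize_sub_lt {a : ℕ} {p q : Fin k → ℕ} (hq : q ∈ Va k a) (hb : bin p q ≠ 0) :
    tsize (p - q) < tsize p := by
  have h1 := tsize_sub (le_of_bin_ne_zero hb)
  have h2 := (mem_Va.mp hq).1
  omega

theorem Sseq_stable (a : ℕ) : ∀ (N M : ℕ) (p : Fin k → ℕ), tsize p ≤ N → tsize p ≤ M →
    Sseq k a N p = Sseq k a M p := by
  intro N
  induction N with
  | zero =>
    intro M p hN _
    have hp : p = 0 := tsize_eq_zero.mp (by omega)
    rw [hp, Sseq_zero_arg, Sseq_zero_arg]
  | succ N ih =>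
    intro M p hN hM
    by_cases hp : p = 0
    · rw [hp, Sseq_zero_arg, Sseq_zero_arg]
    · cases M with
      | zero => exact absurd (tsize_eq_zero.mp (by omega)) hp
      | succ M =>
        rw [Sseq_succ a N p hp, Sseq_succ a M p hp]
        congr 1
        apply Finset.sum_congr rfl
        intro q hq
        by_cases hb : bin p q = 0
        · simp [hb]
        · have := tsize_sub_lt hq hb
          rw [ih M (p - q) (by omega) (by omega)]

theorem Spoly_zero (k a : ℕ) : Spoly k a 0 = 1 := by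
  unfold Spoly
  exact Sseq_zero_arg k a _

theorem bin_zero_left {a : ℕ} {q : Fin k → ℕ} (hq : q ∈ Va k a) : bin 0 q = 0 := by
  by_contra hb
  have h1 := le_of_bin_ne_zero hb
  have h2 : q = 0 := le_antisymm h1 (by intro i; exact Nat.zero_le _)
  rw [mem_Va, h2, tsize_zero] at hq
  omega

theorem Spoly_eq (a : ℕ) (p : Fin k → ℕ) (hp : p ≠ 0) :
    Spoly k a p = C ((tsize p : ℂ)⁻¹) *
      ∑ q ∈ Va k a, C ((tsize q * bin p q : ℕ) : ℂ) * X q * Spoly k a (p - q) := by
  have hpos : tsize p ≠ 0 := fun h => hp (tsize_eq_zero.mp h)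
  obtain ⟨N, hN⟩ := Nat.exists_eq_succ_of_ne_zero hpos
  have e : Spoly k a p = Sseq k a (N + 1) p := by
    unfold Spoly
    rw [hN]
  rw [e, Sseq_succ a N p hp]
  congr 1
  apply Finset.sum_congr rfl
  intro q hq
  by_cases hb : bin p q = 0
  · simp [hb]
  · have := tsize_sub_lt hq hb
    unfold Spoly
    rw [Sseq_stable a N (tsize (p - q)) (p - q) (by omega) le_rfl]

/-- the defining recursion, valid for all `p` -/
theorem Spoly_rec' (a : ℕ) (p : Fin k → ℕ) :
    C (tsize p : ℂ) * Spoly k a p =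
      ∑ q ∈ Va k a, C ((tsize q * bin p q : ℕ) : ℂ) * X q * Spoly k a (p - q) := by
  by_cases hp : p = 0
  · subst hp
    rw [tsize_zero]
    simp only [Nat.cast_zero, map_zero, zero_mul]
    symm
    apply Finset.sum_eq_zero
    intro q hq
    simp [bin_zero_left hq]
  · have hpos : (tsize p : ℂ) ≠ 0 := by
      exact_mod_cast fun h => hp (tsize_eq_zero.mp h)
    rw [Spoly_eq a p hp, ← mul_assoc, ← C_mul, mul_inv_cancel₀ hpos, C_1, one_mul]

/-- the defining recursion -/
theorem Spoly_rec (a : ℕ) (p : Fin k → ℕ) (_hp : p ≠ 0) :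
    C (tsize p : ℂ) * Spoly k a p =
      ∑ q ∈ Va k a, C ((tsize q * bin p q : ℕ) : ℂ) * X q * Spoly k a (p - q) :=
  Spoly_rec' a p

theorem Spoly_mem_supported (a : ℕ) : ∀ (N : ℕ) (p : Fin k → ℕ), tsize p = N →
    Spoly k a p ∈ supported ℂ (↑(Va k a) : Set (Fin k → ℕ)) := by
  intro N
  induction N using Nat.strong_induction_on with
  | _ N ih =>
    intro p hN
    by_cases hp : p = 0
    · rw [hp, Spoly_zero]
      exact one_mem _
    · rw [Spoly_eq a p hp]
      apply mul_mem (Subalgebra.algebraMap_mem _ _)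
      apply sum_mem
      intro q hq
      by_cases hb : bin p q = 0
      · simp [hb]
      · have := tsize_sub_lt hq hb
        exact mul_mem (mul_mem (Subalgebra.algebraMap_mem _ _) (X_mem_supported.mpr hq))
          (ih (tsize (p - q)) (by omega) (p - q) rfl)

theorem vars_Spoly (a : ℕ) (p : Fin k → ℕ) : ∀ q ∈ (Spoly k a p).vars, q ∈ Va k a := by
  intro q hq
  have h := mem_supported.mp (Spoly_mem_supported a (tsize p) p rfl)
  exact Finset.mem_coe.mp (h hq)

theorem constantCoeff_Spoly (a : ℕ) (p : Fin k → ℕ) (hp : p ≠ 0) :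
    constantCoeff (Spoly k a p) = 0 := by
  rw [Spoly_eq a p hp]
  simp [map_sum]

theorem Spoly_weight_aux (a : ℕ) : ∀ (N : ℕ) (p : Fin k → ℕ), tsize p = N →
    IsWeightedHomogeneous (fun q : Fin k → ℕ => q) (Spoly k a p) p := by
  intro N
  induction N using Nat.strong_induction_on with
  | _ N ih =>
    intro p hN
    by_cases hp : p = 0
    · rw [hp, Spoly_zero]
      exact isWeightedHomogeneous_one ℂ _
    · rw [Spoly_eq a p hp]
      have h0 : (0 : Fin k → ℕ) + p = p := zero_add p
      rw [← h0]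
      apply (isWeightedHomogeneous_C _ _).mul
      rw [h0]
      apply IsWeightedHomogeneous.sum
      intro q hq
      by_cases hb : bin p q = 0
      · simp only [hb, mul_zero, Nat.cast_zero, map_zero, zero_mul]
        exact isWeightedHomogeneous_zero ℂ _ _
      · have hlt := tsize_sub_lt hq hb
        have h1 := ih (tsize (p - q)) (by omega) (p - q) rfl
        have h2 := ((isWeightedHomogeneous_C (fun q : Fin k → ℕ => q)
          (((tsize q * bin p q : ℕ) : ℂ))).mul
          (isWeightedHomogeneous_X ℂ (fun q : Fin k → ℕ => q) q)).mul h1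
        have h3 : (0 : Fin k → ℕ) + q + (p - q) = p := by
          rw [zero_add, add_comm]
          exact tsub_add_cancel_of_le (le_of_bin_ne_zero hb)
        rw [h3] at h2
        exact h2

theorem Spoly_weight (a : ℕ) (p : Fin k → ℕ) :
    IsWeightedHomogeneous (fun q : Fin k → ℕ => q) (Spoly k a p) p :=
  Spoly_weight_aux a (tsize p) p rfl

theorem choose_mul_choose_sub (n q r : ℕ) :
    n.choose q * (n - q).choose r = n.choose r * (n - r).choose q := by
  have h1 := Nat.choose_mul (n := n) (k := q + r) (s := q) (Nat.le_add_right q r)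
  have h2 := Nat.choose_mul (n := n) (k := q + r) (s := r) (Nat.le_add_left r q)
  rw [Nat.add_sub_cancel_left] at h1
  rw [Nat.add_sub_cancel] at h2
  rw [← h1, ← h2, Nat.choose_symm_add]

theorem bin_mul_bin_sub (p q r : Fin k → ℕ) :
    bin p q * bin (p - q) r = bin p r * bin (p - r) q := by
  unfold bin
  rw [← Finset.prod_mul_distrib, ← Finset.prod_mul_distrib]
  apply Finset.prod_congr rfl
  intro i _
  exact choose_mul_choose_sub (p i) (q i) (r i)

theorem ring_aux1 {R : Type} [CommRing R] (A B x S E F : R) (h : A * B = E * F) :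
    A * (x * (B * S)) = E * (F * x * S) := by
  calc A * (x * (B * S)) = (A * B) * (x * S) := by ring
    _ = (E * F) * (x * S) := by rw [h]
    _ = E * (F * x * S) := by ring

theorem ring_aux2 {R : Type} [CommRing R] (x S E F : R) (h : E * F = 0) :
    E * (F * x * S) = 0 := by
  calc E * (F * x * S) = (E * F) * (x * S) := by ring
    _ = 0 := by rw [h, zero_mul]

theorem C_bin_key (p q q0 : Fin k → ℕ) :
    (C ((tsize q * bin p q : ℕ) : ℂ) : PolyRing k) * C (bin (p - q) q0 : ℂ)
      = C (bin p q0 : ℂ) * C ((tsize q * bin (p - q0) q : ℕ) : ℂ) := by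
  rw [← C_mul, ← C_mul, ← Nat.cast_mul, ← Nat.cast_mul]
  congr 2
  rw [Nat.mul_assoc, bin_mul_bin_sub p q q0, Nat.mul_left_comm]

theorem second_term (a : ℕ) (p q q0 : Fin k → ℕ) (D : PolyRing k)
    (hD : bin p q ≠ 0 → D = C (bin (p - q) q0 : ℂ) * Spoly k a (p - q - q0)) :
    C ((tsize q * bin p q : ℕ) : ℂ) * (X q * D)
      = C (bin p q0 : ℂ) *
          (C ((tsize q * bin (p - q0) q : ℕ) : ℂ) * X q * Spoly k a (p - q0 - q)) := by
  have key := C_bin_key p q q0
  by_cases hb : bin p q = 0
  · have h0 : (C ((tsize q * bin p q : ℕ) : ℂ) : PolyRing k) = 0 := by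
      rw [hb]
      simp
    rw [h0, zero_mul] at key
    rw [h0, zero_mul, ring_aux2 _ _ _ _ key.symm]
  · rw [hD hb]
    have h4 : p - q - q0 = p - q0 - q := tsub_right_comm
    rw [h4]
    exact ring_aux1 _ _ _ _ _ _ key

theorem ring_aux3 {R : Type} [CommRing R] (A x S D T e : R) (h : A * (x * D) = T) :
    A * (x * D + S * e) = A * S * e + T := by
  rw [← h]
  ring

theorem pderiv_term (a : ℕ) (p q q0 : Fin k → ℕ)
    (hD : bin p q ≠ 0 → pderiv q0 (Spoly k a (p - q))
      = C (bin (p - q) q0 : ℂ) * Spoly k a (p - q - q0)) :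
    pderiv q0 (C ((tsize q * bin p q : ℕ) : ℂ) * X q * Spoly k a (p - q))
      = (if q = q0 then C ((tsize q0 * bin p q0 : ℕ) : ℂ) * Spoly k a (p - q0) else 0)
        + C (bin p q0 : ℂ) *
          (C ((tsize q * bin (p - q0) q : ℕ) : ℂ) * X q * Spoly k a (p - q0 - q)) := by
  classical
  rw [mul_assoc, pderiv_C_mul, Derivation.leibniz, pderiv_X]
  simp only [smul_eq_mul]
  rw [ring_aux3 _ _ _ _ _ _ (second_term a p q q0 _ hD), Pi.single_apply]
  congr 1
  split_ifs with h
  · rw [h, mul_one]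
  · rw [mul_zero]

theorem ring_aux4 {R : Type} [CommRing R] (t0 b S t1 tp : R) (h : tp = t1 + t0) :
    t0 * b * S + b * (t1 * S) = tp * (b * S) := by
  rw [h]
  ring

theorem pderiv_Spoly_aux {a : ℕ} {q0 : Fin k → ℕ} (hq0 : q0 ∈ Va k a) :
    ∀ (N : ℕ) (p : Fin k → ℕ), tsize p = N →
    pderiv q0 (Spoly k a p) = C (bin p q0 : ℂ) * Spoly k a (p - q0) := by
  classical
  intro N
  induction N using Nat.strong_induction_on with
  | _ N ih =>
    intro p hN
    by_cases hp : p = 0
    · rw [hp, Spoly_zero, bin_zero_left hq0]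
      simp
    · have hpos : (C (tsize p : ℂ) : PolyRing k) ≠ 0 := by
        rw [Ne, C_eq_zero]
        exact_mod_cast fun h => hp (tsize_eq_zero.mp h)
      apply mul_left_cancel₀ hpos
      rw [← pderiv_C_mul, Spoly_rec' a p, map_sum]
      have hterm : ∀ q ∈ Va k a,
          pderiv q0 (C ((tsize q * bin p q : ℕ) : ℂ) * X q * Spoly k a (p - q))
            = (if q = q0 then C ((tsize q0 * bin p q0 : ℕ) : ℂ) * Spoly k a (p - q0) else 0)
              + C (bin p q0 : ℂ) *
                (C ((tsize q * bin (p - q0) q : ℕ) : ℂ) * X q * Spoly k a (p - q0 - q)) := by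
        intro q hq
        apply pderiv_term
        intro hb
        have hlt := tsize_sub_lt hq hb
        exact ih (tsize (p - q)) (by omega) (p - q) rfl
      rw [Finset.sum_congr rfl hterm, Finset.sum_add_distrib, Finset.sum_ite_eq' _ q0, if_pos hq0,
        ← Finset.mul_sum, ← Spoly_rec' a (p - q0)]
      by_cases hb : bin p q0 = 0
      · simp [hb]
      · have h5 := tsize_sub (le_of_bin_ne_zero hb)
        have h6 : (C (tsize p : ℂ) : PolyRing k) = C (tsize (p - q0) : ℂ) + C (tsize q0 : ℂ) := by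
          rw [← C_add, ← Nat.cast_add, h5]
        rw [Nat.cast_mul, C_mul]
        exact ring_aux4 _ _ _ _ _ h6

/-- the key differential equation -/
theorem pderiv_Spoly {a : ℕ} {q : Fin k → ℕ} (hq : q ∈ Va k a) (p : Fin k → ℕ) :
    pderiv q (Spoly k a p) = C (bin p q : ℂ) * Spoly k a (p - q) :=
  pderiv_Spoly_aux hq (tsize p) p rfl

end Vale.Agent.Lib.P181
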