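import Vale.Agent.Lib.P181.Stable.Inj
import Vale.Agent.Lib.P181.Stable.Homg
import Vale.Agent.Lib.P181.Stable.StFin

/-!
# P181: the inequality in the stable model
-/

namespace Vale.Agent.Lib.P181

open MvPolynomial

variable {k : ℕ}

theorem ne_zero_of_mem_Va {a : ℕ} {q : Fin k → ℕ} (hq : q ∈ Va k a) : q ≠ 0 := by
  intro h
  rw [mem_Va, h, tsize_zero] at hq
  omega

/-- `homg ∘ Zhom` maps the weight space to itself -/
theorem homg_Zhom_mem {c a : ℕ} {nu : Fin k → ℕ} {F : PolyRing k}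
    (hw : IsWeightedHomogeneous (fun p : Fin k → ℕ => p) F nu) :
    homg k c (Zhom k a F) ∈ Wt k c a nu := by
  rw [mem_Wt]
  refine ⟨?_, homg_isHomogeneous c _, homg_weight c (Zhom_weight a hw)⟩
  intro p hp
  rcases homg_vars c _ p hp with h | h
  · rw [h, tsize_zero]
    exact Nat.zero_le _
  · exact (mem_Va.mp (vars_Zhom a F p h)).2

theorem totalDegree_Zhom_le {c a : ℕ} {nu : Fin k → ℕ} (hc : tsize nu ≤ c) {F : PolyRing k}
    (hw : IsWeightedHomogeneous (fun p : Fin k → ℕ => p) F nu) :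
    (Zhom k a F).totalDegree ≤ c :=
  (totalDegree_le_of_tsize (tsize_of_weight (Zhom_weight a hw))
    (fun p hp => ne_zero_of_mem_Va (vars_Zhom a F p hp))).trans hc

/-- every polynomial of weight `nu` in the image of `Zhom` comes from the weight space
`Wt k c a nu`, as soon as `c ≥ |nu|` -/
theorem exists_Wt_preimage {c a : ℕ} {nu : Fin k → ℕ} (hc : tsize nu ≤ c) {F : PolyRing k}
    (hw : IsWeightedHomogeneous (fun p : Fin k → ℕ => p) F nu) :
    ∃ G ∈ Wt k c a nu, Zhom k a G = Zhom k a F := by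
  let Phi : Wt k c a nu →ₗ[ℂ] Wt k c a nu :=
    ((homg k c) ∘ₗ (Zhom k a).toLinearMap).restrict
      (fun G hG => homg_Zhom_mem (mem_Wt.mp hG).2.2)
  have hinj : Function.Injective Phi := by
    rw [← LinearMap.ker_eq_bot, LinearMap.ker_eq_bot']
    intro G hG
    have h1 : homg k c (Zhom k a G.1) = 0 := congrArg Subtype.val hG
    obtain ⟨hv, hh, hwG⟩ := mem_Wt.mp G.2
    have h2 : Zhom k a G.1 = 0 := by
      apply homg_injOn c (totalDegree_Zhom_le hc hwG) (by simp)
        (fun p hp => ne_zero_of_mem_Va (vars_Zhom a G.1 p hp)) (by simp)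
      rw [h1, map_zero]
    exact Subtype.ext (Zhom_inj_small _ G.1 hh hv (tsize_of_weight hwG) h2)
  have hsurj : Function.Surjective Phi := LinearMap.injective_iff_surjective.mp hinj
  obtain ⟨G, hG⟩ := hsurj ⟨homg k c (Zhom k a F), homg_Zhom_mem hw⟩
  refine ⟨G.1, G.2, ?_⟩
  have h1 : homg k c (Zhom k a G.1) = homg k c (Zhom k a F) := congrArg Subtype.val hG
  exact homg_injOn c (totalDegree_Zhom_le hc (mem_Wt.mp G.2).2.2) (totalDegree_Zhom_le hc hw)
    (fun p hp => ne_zero_of_mem_Va (vars_Zhom a G.1 p hp))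
    (fun p hp => ne_zero_of_mem_Va (vars_Zhom a F p hp)) h1

/-- the image under `Zhom` of the stable highest weight vectors of `(a, b)` is contained in the
image of the stable highest weight vectors of `(c, a)` -/
theorem map_St_le {a b c : ℕ} {nu : Fin k → ℕ} (ha : 1 ≤ a) (hc : tsize nu ≤ c) :
    (St k a b nu).map (Zhom k a).toLinearMap ≤ (St k c a nu).map (Zhom k a).toLinearMap := by
  rintro _ ⟨F, hF, rfl⟩
  obtain ⟨_, _, hw, hlow, hraise⟩ := mem_St.mp hF
  obtain ⟨G, hG, hGF⟩ := exists_Wt_preimage (a := a) hc hw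
  obtain ⟨hv, hh, hwG⟩ := mem_Wt.mp hG
  refine ⟨G, ?_, hGF⟩
  rw [SetLike.mem_coe, mem_St]
  refine ⟨hv, hh, hwG, ?_, ?_⟩
  · intro j
    rw [low_eq_Tq]
    apply Zhom_inj_small _ _ (Tq_isHomogeneous _ hh) (Tq_vars _ hv) (Tq_tsize _ (tsize_of_weight hwG))
    rw [← pderiv_Zhom (single_mem_Va ha j), hGF, pderiv_Zhom (single_mem_Va ha j), ← low_eq_Tq,
      hlow j, map_zero]
  · intro i j hij
    apply Zhom_inj_small _ _ (raise_isHomogeneous i j hh) (raise_vars i j hv)
      (raise_tsize i j (tsize_of_weight hwG))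
    rw [← raise_Zhom a i j (ne_of_lt hij), hGF, raise_Zhom a i j (ne_of_lt hij), hraise i j hij,
      map_zero]

/-- **The stable inequality.** -/
theorem St_finrank_le {a b c : ℕ} {nu : Fin k → ℕ} (ha : 1 ≤ a) (hc : tsize nu ≤ c) :
    Module.finrank ℂ (St k a b nu) ≤ Module.finrank ℂ (St k c a nu) := by
  have hinj : Function.Injective ((Zhom k a).toLinearMap.domRestrict (St k a b nu)) := by
    rw [← LinearMap.ker_eq_bot, LinearMap.ker_eq_bot']
    intro F hF
    have h1 : Zhom k a F.1 = 0 := hF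
    obtain ⟨_, hh, hw, _, _⟩ := mem_St.mp F.2
    exact Subtype.ext (Zhom_inj_deg _ F.1 hh (tsize_of_weight hw) h1)
  have h1 := LinearMap.finrank_range_of_inj hinj
  rw [LinearMap.range_domRestrict] at h1
  rw [← h1]
  exact (Submodule.finrank_mono (map_St_le ha hc)).trans (Submodule.finrank_map_le _ _)

end Vale.Agent.Lib.P181
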